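import Vale.Agent.P088.R2.H349.V.V8

/-!
# P088, stage 4: SOL3 for systems, corrections of test functions
-/

open MeasureTheory Set Filter
open scoped ContDiff Matrix Topology InnerProductSpace

noncomputable section

set_option linter.unusedSectionVars false

namespace Vale.Agent.P088.R2.H349.V

open Vale.Agent.P088.LR Vale.Agent.P088.HY Vale.Agent.P088.R2.H269 Vale.Agent.P088.S4

variable {n m : ℕ} {s₁ s₂ : MF n} {B C : Fin n → V n → Matrix (Fin m) (Fin m) ℝ}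

/-- the exhaustion -/
lemma hexN {M : ℝ} (hM : 0 ≤ M) (h₁ : Tn M s₁) (h₂ : Tn M s₂) {W : VV n → ℝ} (hW : Wt M W) :
    ∃ K, Ex univ (bs n) (aa s₁ s₂) W K := by
  refine ex_univ hM (fun k i j => ?_) (fun k i j z => ?_) (fun k i j z => ?_) hW.sm hW.lo
    (fun k z => ?_) fun k l z => ?_
  · fin_cases k
    · exact sm_aX h₁.sm i j
    · exact sm_aY h₂.sm i j
  · fin_cases k
    · exact h₁.bX hM i j z
    · exact h₂.bY hM i j z
  · fin_cases k
    · exact h₁.dX hM i j z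
    · exact h₂.dY hM i j z
  · rcases k with k | k
    · rw [db_inl]
      exact hW.x1 k z
    · rw [db_inr]
      exact hW.y1 k z
  · rcases k with k | k <;> rcases l with l | l
    · rw [db_inl, db_inl]
      exact hW.xx k l z
    · rw [db_inl, db_inr]
      exact hW.xy k l z
    · rw [db_inr, db_inl, ← dx_dy' hW.sm l k]
      exact hW.xy l k z
    · rw [db_inr, db_inr]
      exact hW.yy k l z

/-- domination -/
lemma dom_one {M : ℝ} {s : MF n} (hu : Ue M s) (x : V n) {b : Fin n → ℝ}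
    (hb : ∀ i, |b i| ≤ M) (ξ : Fin n → ℝ) :
    (∑ i, b i * ξ i) ^ 2 ≤ (n * M ^ 3 + n * M) * ∑ i, ∑ j, s x i j * (ξ i * ξ j) := by
  have h1 : (∑ i, b i * ξ i) ^ 2 ≤ (∑ i, b i ^ 2) * ∑ i, ξ i ^ 2 :=
    Finset.sum_mul_sq_le_sq_mul_sq _ _ _
  have h2 : ∑ i, b i ^ 2 ≤ n * M ^ 2 := by
    calc ∑ i, b i ^ 2 ≤ ∑ _i : Fin n, M ^ 2 := Finset.sum_le_sum fun i _ =>
          sq_le_sq' (by linarith [(abs_le.1 (hb i)).1]) (abs_le.1 (hb i)).2
      _ = n * M ^ 2 := by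
        rw [Finset.sum_const, Finset.card_univ, Fintype.card_fin, nsmul_eq_mul]
  have h3 := hu x ξ
  have h0 : 0 ≤ ∑ i, ξ i ^ 2 := Finset.sum_nonneg fun i _ => sq_nonneg _
  set Q := ∑ i, ∑ j, s x i j * (ξ i * ξ j) with hQ
  have h4 : (∑ i, b i ^ 2) * ∑ i, ξ i ^ 2 ≤ n * M ^ 2 * (M * Q) :=
    mul_le_mul h2 h3 h0 (by positivity)
  have h5 : 0 ≤ M * Q := h0.trans h3
  have h6 : 0 ≤ (n : ℝ) * (M * Q) := mul_nonneg (Nat.cast_nonneg n) h5
  calc (∑ i, b i * ξ i) ^ 2 ≤ n * M ^ 2 * (M * Q) := h1.trans h4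
    _ ≤ n * M ^ 2 * (M * Q) + n * (M * Q) := by linarith
    _ = _ := by ring

lemma domN {M : ℝ} (hM : 0 ≤ M) (u₁ : Ue M s₁) (u₂ : Ue M s₂)
    (hB : Bn M B) (hC : Bn M C) (k : Fin 2) (p q : Fin m) (z : VV n)
    (ξ : Fin n ⊕ Fin n → ℝ) :
    (∑ i, (DD s₁ s₂ B C k).B p q i z * ξ i) ^ 2
      ≤ (n * M ^ 3 + n * M) * ∑ i, ∑ j, (DD s₁ s₂ B C k).a i j z * (ξ i * ξ j) := by
  fin_cases k
  · change (∑ i, BX B p q i z * ξ i) ^ 2 ≤ (n * M ^ 3 + n * M) * ∑ i, ∑ j, aX s₁ i j z * (ξ i * ξ j)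
    rw [sum_aX, sum_BX]
    exact dom_one u₁ z.1 (fun i => hB.b0 i p q z.1) fun i => ξ (Sum.inl i)
  · change (∑ i, BY C p q i z * ξ i) ^ 2 ≤ (n * M ^ 3 + n * M) * ∑ i, ∑ j, aY s₂ i j z * (ξ i * ξ j)
    rw [sum_aY, sum_BY]
    exact dom_one u₂ z.2 (fun i => hC.b0 i p q z.2) fun i => ξ (Sum.inr i)

lemma trC_le {M : ℝ} (hM : 0 ≤ M) (hB : Bn M B) (hC : Bn M C) (k : Fin 2) (p q : Fin m)
    (z : VV n) : |(tr (bs n) (DD s₁ s₂ B C k)).C p q z| ≤ n * M ^ 3 + n * M := by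
  have h0 : 0 ≤ (n : ℝ) * M ^ 3 := by positivity
  have key : ∀ (c : Fin n → ℝ), (∀ i, |c i| ≤ M) → |0 - ∑ i, c i| ≤ n * M ^ 3 + n * M := by
    intro c hc
    have h1 : |∑ i, c i| ≤ n * M := by
      refine (Finset.abs_sum_le_sum_abs _ _).trans ?_
      refine (Finset.sum_le_sum fun i _ => hc i).trans (le_of_eq ?_)
      rw [Finset.sum_const, Finset.card_univ, Fintype.card_fin, nsmul_eq_mul]
    rw [zero_sub, abs_neg]
    linarith
  fin_cases k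
  · change |0 - ∑ i, db (bs n) i (BX B q p i) z| ≤ _
    rw [div_BX hB.sm]
    exact key _ fun i => hB.b1 i i q p z.1
  · change |0 - ∑ i, db (bs n) i (BY C q p i) z| ≤ _
    rw [div_BY hC.sm]
    exact key _ fun i => hC.b1 i i q p z.2

/-- Cauchy-Schwarz for pairs of vectors -/
lemma cs_intV {w : VV n → ℝ} {G₁ G₂ a₁ a₂ : Fin m → VV n → ℝ} (hw : Continuous w)
    (pw : ∀ z, 0 < w z) (hG₁ : ∀ p, Continuous (G₁ p)) (hG₂ : ∀ p, Continuous (G₂ p))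
    (hG : Integrable (fun z => (∑ p, (G₁ p z ^ 2 + G₂ p z ^ 2)) / w z))
    (h₁ : ∀ p, Tt univ (a₁ p)) (h₂ : ∀ p, Tt univ (a₂ p)) :
    (∫ z, ∑ p, (G₁ p z * a₁ p z + G₂ p z * a₂ p z)) ^ 2 ≤
      (∫ z, (∑ p, (G₁ p z ^ 2 + G₂ p z ^ 2)) / w z)
        * ∫ z, w z * ∑ p, (a₁ p z ^ 2 + a₂ p z ^ 2) := by
  have ci : ∀ f g : VV n → ℝ, Continuous f → Tt univ g → Integrable (fun z => f z * g z) := by
    intro f g hf hg
    exact (hf.mul hg.s.continuous).integrable_of_hasCompactSupport hg.c.mul_left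
  have I1 : Integrable (fun z => ∑ p, (G₁ p z * a₁ p z + G₂ p z * a₂ p z)) :=
    integrable_finsetSum _ fun p _ => (ci _ _ (hG₁ p) (h₁ p)).add (ci _ _ (hG₂ p) (h₂ p))
  have I2 : Integrable (fun z => w z * ∑ p, (a₁ p z ^ 2 + a₂ p z ^ 2)) := by
    have j : ∀ p, Integrable (fun z => w z * a₁ p z * a₁ p z + w z * a₂ p z * a₂ p z) := fun p =>
      (ci (fun z => w z * a₁ p z) (a₁ p) (hw.mul (h₁ p).s.continuous) (h₁ p)).add
        (ci (fun z => w z * a₂ p z) (a₂ p) (hw.mul (h₂ p).s.continuous) (h₂ p))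
    refine (integrable_finsetSum Finset.univ fun p _ => j p).congr
      (Eventually.of_forall fun z => ?_)
    simp only [Finset.mul_sum]
    exact Finset.sum_congr rfl fun p _ => by ring
  have key : ∀ t : ℝ, 0 ≤ (∫ z, w z * ∑ p, (a₁ p z ^ 2 + a₂ p z ^ 2)) * (t * t)
      + (2 * ∫ z, ∑ p, (G₁ p z * a₁ p z + G₂ p z * a₂ p z)) * t
      + ∫ z, (∑ p, (G₁ p z ^ 2 + G₂ p z ^ 2)) / w z := by
    intro t
    have e1 : (∫ z, w z * ∑ p, (a₁ p z ^ 2 + a₂ p z ^ 2)) * (t * t)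
        + (2 * ∫ z, ∑ p, (G₁ p z * a₁ p z + G₂ p z * a₂ p z)) * t
        + ∫ z, (∑ p, (G₁ p z ^ 2 + G₂ p z ^ 2)) / w z
        = ∫ z, ((t * t) * (w z * ∑ p, (a₁ p z ^ 2 + a₂ p z ^ 2))
          + (2 * t) * (∑ p, (G₁ p z * a₁ p z + G₂ p z * a₂ p z))
          + (∑ p, (G₁ p z ^ 2 + G₂ p z ^ 2)) / w z) := by
      have J1 : Integrable (fun z => (t * t) * (w z * ∑ p, (a₁ p z ^ 2 + a₂ p z ^ 2))) :=
        I2.const_mul _
      have J2 : Integrable (fun z => (2 * t) * (∑ p, (G₁ p z * a₁ p z + G₂ p z * a₂ p z))) :=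
        I1.const_mul _
      have J3 : Integrable (fun z => (t * t) * (w z * ∑ p, (a₁ p z ^ 2 + a₂ p z ^ 2))
        + (2 * t) * (∑ p, (G₁ p z * a₁ p z + G₂ p z * a₂ p z))) := J1.add J2
      rw [integral_add J3 hG, integral_add J1 J2, integral_const_mul, integral_const_mul]
      ring
    rw [e1]
    refine integral_nonneg fun z => ?_
    have hz := pw z
    have e2 : (t * t) * (w z * ∑ p, (a₁ p z ^ 2 + a₂ p z ^ 2))
          + (2 * t) * (∑ p, (G₁ p z * a₁ p z + G₂ p z * a₂ p z))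
          + (∑ p, (G₁ p z ^ 2 + G₂ p z ^ 2)) / w z
        = ∑ p, ((t * w z * a₁ p z + G₁ p z) ^ 2 + (t * w z * a₂ p z + G₂ p z) ^ 2) / w z := by
      rw [Finset.mul_sum, Finset.mul_sum, Finset.mul_sum, Finset.sum_div,
        ← Finset.sum_add_distrib, ← Finset.sum_add_distrib]
      refine Finset.sum_congr rfl fun p _ => ?_
      field_simp
      ring
    change 0 ≤ (t * t) * (w z * ∑ p, (a₁ p z ^ 2 + a₂ p z ^ 2))
          + (2 * t) * (∑ p, (G₁ p z * a₁ p z + G₂ p z * a₂ p z))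
          + (∑ p, (G₁ p z ^ 2 + G₂ p z ^ 2)) / w z
    rw [e2]
    exact Finset.sum_nonneg fun p _ => by positivity
  have h3 := discrim_le_zero key
  unfold discrim at h3
  nlinarith

/-- **SOL3N**: corrections of test functions for systems. -/
theorem solN (hyp : RowHYP) {M : ℝ} (hM : 0 ≤ M) (h₁ : Tn M s₁) (h₂ : Tn M s₂)
    (u₁ : Ue M s₁) (u₂ : Ue M s₂) (hB : Bn M B) (hC : Bn M C)
    (hc : ∀ i j x y, B i x * C j y = C j y * B i x)
    {W : VV n → ℝ} (hW : Wt M W) {w o₁ o₂ : VV n → ℝ} (cw : Continuous w) (pw : ∀ z, 0 < w z)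
    (c₁ : Continuous o₁) (p₁ : ∀ z, 0 < o₁ z) (c₂ : Continuous o₂) (p₂ : ∀ z, 0 < o₂ z) {C₂ : ℝ}
    (b₂ : ∀ z, o₂ z ≤ C₂)
    (est : ∀ a₁ a₂ : Fin m → VV n → ℝ, (∀ a, Tt univ (a₁ a)) → (∀ a, Tt univ (a₂ a)) →
      ∫ z, w z * ∑ a, (a₁ a z ^ 2 + a₂ a z ^ 2) ≤
      ∫ z, (o₁ z * ∑ a, (QXN s₁ B W a₁ a z + QYN s₂ C W a₂ a z) ^ 2
        + o₂ z * ∑ a, (PYN s₂ C W a₁ a z - PXN s₁ B W a₂ a z) ^ 2))
    {K₀ : Fin m → VV n → ℝ} (hK : ∀ a, ContDiff ℝ ∞ (K₀ a)) (hKc : ∀ a, HasCompactSupport (K₀ a)) :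
    ∃ K₁ : Fin m → VV n → ℝ, (∀ a, ContDiff ℝ ∞ (K₁ a)) ∧
      (∀ a z, AXN s₁ B K₁ a z = AXN s₁ B K₀ a z) ∧ (∀ a z, AYN s₂ C K₁ a z = AYN s₂ C K₀ a z) ∧
      Integrable (fun z => Real.exp (-(2 * W z)) * (∑ a, K₁ a z ^ 2) / o₁ z) ∧
      ∫ z, Real.exp (-(2 * W z)) * (∑ a, K₁ a z ^ 2) / o₁ z ≤
        ∫ z, Real.exp (-(2 * W z)) * (∑ a, (AXN s₁ B K₀ a z ^ 2 + AYN s₂ C K₀ a z ^ 2)) / w z := by
  obtain ⟨K, hex⟩ := hexN hM h₁ h₂ hW
  have ok := ok_DD (B := B) (C := C) h₁.sm h₂.sm h₁.sy h₂.sy h₁.pos h₂.pos hB.sm hC.sm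
  have sX : ∀ a, S (AXN s₁ B K₀ a) := sm_AXN h₁.sm hB.sm hK
  have sY : ∀ a, S (AYN s₂ C K₀ a) := sm_AYN h₂.sm hC.sm hK
  have cLV : ∀ k a, HasCompactSupport (LV (bs n) (DD s₁ s₂ B C k) K₀ a) := by
    intro k a
    refine HasCompactSupport.of_support_subset_isCompact
      (isCompact_iUnion fun q => hKc q) ((subset_tsupport _).trans ?_)
    intro z hz
    by_contra hn
    rw [mem_iUnion, not_exists] at hn
    have h1 : ∀ q, K₀ q =ᶠ[𝓝 z] fun _ => (0 : ℝ) := fun q =>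
      notMem_tsupport_iff_eventuallyEq.1 (hn q)
    have h2 := LV_congr (e := bs n) (D := DD s₁ s₂ B C k) (f := K₀) (g := fun _ _ => 0) h1 a
    refine (notMem_tsupport_iff_eventuallyEq.2 (h2.trans ?_)) hz
    refine Eventually.of_forall fun w => ?_
    unfold LV
    rw [congrFun Ld_zero w, congrFun (Fo_zero a) w]
    simp
  have cX : ∀ a, HasCompactSupport (AXN s₁ B K₀ a) := by
    intro a
    have e : LV (bs n) (DD s₁ s₂ B C 0) K₀ a = AXN s₁ B K₀ a := funext fun z => LV0 K₀ a z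
    rw [← e]
    exact cLV 0 a
  have cY : ∀ a, HasCompactSupport (AYN s₂ C K₀ a) := by
    intro a
    have e : LV (bs n) (DD s₁ s₂ B C 1) K₀ a = AYN s₂ C K₀ a := funext fun z => LV1 K₀ a z
    rw [← e]
    exact cLV 1 a
  set F₁ : Fin m → VV n → ℝ := AXN s₁ B K₀ with hF₁
  set F₂ : Fin m → VV n → ℝ := AYN s₂ C K₀ with hF₂
  set M2 : ℝ := ∫ z, Real.exp (-(2 * W z)) * (∑ a, (F₁ a z ^ 2 + F₂ a z ^ 2)) / w z with hM2
  have hM20 : 0 ≤ M2 := integral_nonneg fun z => div_nonneg (mul_nonneg (Real.exp_pos _).le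
    (Finset.sum_nonneg fun p _ => by positivity)) (pw z).le
  have eG : ∀ z, (∑ a, ((Real.exp (-W z) * F₁ a z) ^ 2 + (Real.exp (-W z) * F₂ a z) ^ 2)) / w z
      = Real.exp (-(2 * W z)) * (∑ a, (F₁ a z ^ 2 + F₂ a z ^ 2)) / w z := by
    intro z
    rw [Finset.mul_sum]
    congr 1
    refine Finset.sum_congr rfl fun a _ => ?_
    rw [mul_pow, mul_pow, ← mul_add, ← Real.exp_nat_mul]
    congr 2
    push_cast
    ring
  have iM : Integrable (fun z => Real.exp (-(2 * W z)) * (∑ a, (F₁ a z ^ 2 + F₂ a z ^ 2)) / w z) := by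
    have k1 : Continuous (fun z => Real.exp (-(2 * W z)) * (∑ a, (F₁ a z ^ 2 + F₂ a z ^ 2))
        / w z) := by
      refine Continuous.div ?_ cw fun z => (pw z).ne'
      exact ((contDiff_const.mul hW.sm).neg.exp.continuous).mul
        (continuous_finsetSum _ fun a _ =>
          ((sX a).continuous.pow 2).add ((sY a).continuous.pow 2))
    refine k1.integrable_of_hasCompactSupport ?_
    have c1 : HasCompactSupport (fun z => ∑ a, (F₁ a z ^ 2 + F₂ a z ^ 2)) := by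
      refine cs_sum fun a _ => ?_
      have a1 := cs_mul_right (g := F₁ a) (cX a)
      have a2 := cs_mul_right (g := F₂ a) (cY a)
      have := cs_add a1 a2
      simpa only [pow_two] using this
    have e1 : (fun z => Real.exp (-(2 * W z)) * (∑ a, (F₁ a z ^ 2 + F₂ a z ^ 2)) / w z)
        = fun z => (Real.exp (-(2 * W z)) / w z) * ∑ a, (F₁ a z ^ 2 + F₂ a z ^ 2) := by
      ext z
      ring
    rw [e1]
    exact cs_mul_left c1
  obtain ⟨v, v1, v2, v3, v4, v5⟩ := solV (μ := (volume : Measure (VV n))) hyp (bs n)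
    (D := DD s₁ s₂ B C) ok (fun z ξ hξ => ell_aa h₁.pos h₂.pos z ξ hξ)
    (fun f hf p z => by
      have e1 : LV (bs n) (DD s₁ s₂ B C 1) f = AYN s₂ C f := by
        funext a w
        exact LV1 f a w
      have e0 : LV (bs n) (DD s₁ s₂ B C 0) f = AXN s₁ B f := by
        funext a w
        exact LV0 f a w
      rw [e1, e0, LV0, LV1]
      exact AXN_AYN h₁.sm h₂.sm hB.sm hC.sm hc hf p z)
    (β := n * M ^ 3 + n * M) (by positivity) (domN hM u₁ u₂ hB hC) (trC_le hM hB hC) hW.sm hex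
    c₁ c₂ p₁ p₂ b₂ (F₁ := F₁) (F₂ := F₂) sX sY
    (fun p z => by
      rw [LV0, LV1]
      exact (AXN_AYN h₁.sm h₂.sm hB.sm hC.sm hc hK p z).symm)
    (M := √M2) (Real.sqrt_nonneg _) (fun a₁ a₂ t₁ t₂ => by
      rw [Real.sq_sqrt hM20]
      have sE : Continuous (fun z => Real.exp (-W z)) := (hW.sm.neg.exp).continuous
      have cs := cs_intV (w := w) (G₁ := fun p z => Real.exp (-W z) * F₁ p z)
        (G₂ := fun p z => Real.exp (-W z) * F₂ p z) cw pw (fun p => sE.mul (sX p).continuous)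
        (fun p => sE.mul (sY p).continuous) (by
          simp only [eG]
          exact iM) t₁ t₂
      simp only [eG] at cs
      have e1 : ∫ z, Real.exp (-W z) * (∑ p, F₁ p z * a₁ p z + ∑ p, F₂ p z * a₂ p z)
          = ∫ z, ∑ p, (Real.exp (-W z) * F₁ p z * a₁ p z + Real.exp (-W z) * F₂ p z * a₂ p z) := by
        congr 1
        ext z
        rw [mul_add, Finset.mul_sum, Finset.mul_sum, ← Finset.sum_add_distrib]
        exact Finset.sum_congr rfl fun p _ => by ring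
      rw [e1]
      refine cs.trans (mul_le_mul_of_nonneg_left ?_ hM20)
      refine (est a₁ a₂ t₁ t₂).trans (le_of_eq ?_)
      congr 1
      ext z
      simp only [KT0 hB.sm, KT1 hC.sm, KV0 h₁.sm hW.sm, KV1 h₂.sm hW.sm])
  refine ⟨v, v1, fun a z => ?_, fun a z => ?_, v4, ?_⟩
  · rw [← LV0 (s₂ := s₂) (C := C)]
    exact v2 a z
  · rw [← LV1 (s₁ := s₁) (B := B)]
    exact v3 a z
  · rw [Real.sq_sqrt hM20] at v5
    exact v5

end Vale.Agent.P088.R2.H349.V
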