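import Vale.Agent.P088.R2.H349.Hyp
import Vale.Agent.P088.R2.H349.V.V9

/-!
# P088, stage 4: the row SOL3N
-/

namespace Vale.Agent.P088.S4

open Vale.Agent.P088.R2.H349.V

/-- **SOL3N** is proved. -/
theorem rowSOL3N : RowSOL3N := fun n m _ M hM s₁ s₂ h₁ h₂ u₁ u₂ B C hB hC hc W hW w o₁ o₂ cw pw
    c₁ p₁ c₂ p₂ C₂ b₂ est K₀ hK hKc =>
  solN Vale.Agent.P088.HY.rowHYP hM h₁ h₂ u₁ u₂ hB hC hc hW cw pw c₁ p₁ c₂ p₂ b₂ est hK hKc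

end Vale.Agent.P088.S4
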