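import Vale.Agent.P088.R2.H269.W.W5

/-!
# P088, stage 4: SOL3 for systems, calculus

Operators `L f_p = ∑ ∂_i (a_ij ∂_j f_p) + ∑_q (∑_i B_pqi ∂_i f_q + C_pq f_q)` and their conjugates.
-/

open MeasureTheory Set Filter
open scoped ContDiff Matrix Topology

noncomputable section

set_option linter.unusedSectionVars false

namespace Vale.Agent.P088.R2.H349.V

open Vale.Agent.P088.LR Vale.Agent.P088.HY Vale.Agent.P088.R2.H269

variable {J κ E : Type} [Fintype J] [Fintype κ] [NormedAddCommGroup E] [NormedSpace ℝ E]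

/-- Coefficients of a second order operator on vector functions. -/
structure Cf (J κ E : Type) where
  a : J → J → E → ℝ
  B : κ → κ → J → E → ℝ
  C : κ → κ → E → ℝ

/-- Smooth coefficients, symmetric nonnegative principal part. -/
structure Ok (D : Cf J κ E) : Prop where
  sa : ∀ i j, S (D.a i j)
  ss : ∀ i j z, D.a i j z = D.a j i z
  pa : Pos D.a
  sB : ∀ p q i, S (D.B p q i)
  sC : ∀ p q, S (D.C p q)

/-- The transposed operator. -/
def tr (e : J → E) (D : Cf J κ E) : Cf J κ E where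
  a := D.a
  B := fun p q i z => -D.B q p i z
  C := fun p q z => D.C q p z - ∑ i, db e i (D.B q p i) z

/-- First order terms. -/
def Fo (e : J → E) (B : κ → κ → J → E → ℝ) (C : κ → κ → E → ℝ) (f : κ → E → ℝ) (p : κ) (z : E) : ℝ :=
  ∑ q, (∑ i, B p q i z * db e i (f q) z + C p q z * f q z)

/-- The operator. -/
def LV (e : J → E) (D : Cf J κ E) (f : κ → E → ℝ) (p : κ) (z : E) : ℝ :=
  Ld e D.a (f p) z + Fo e D.B D.C f p z

/-- The zero order coefficient of the conjugated operator. -/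
def CW (e : J → E) (D : Cf J κ E) (W : E → ℝ) (p q : κ) (z : E) : ℝ :=
  D.C p q z + ∑ i, D.B p q i z * db e i W z

/-- The conjugated operator `e^{-W} L (e^W f)`. -/
def KV (e : J → E) (D : Cf J κ E) (W : E → ℝ) (f : κ → E → ℝ) (p : κ) (z : E) : ℝ :=
  Qd e D.a (fun z => -W z) (f p) z + Fo e D.B (CW e D W) f p z

variable {e : J → E} {D : Cf J κ E} {W : E → ℝ} {f g h : κ → E → ℝ}

lemma Ok.tr (hD : Ok D) : Ok (tr e D) where
  sa := hD.sa
  ss := hD.ss
  pa := hD.pa
  sB := fun p q i => (hD.sB q p i).neg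
  sC := fun p q => (hD.sC q p).sub (S.sum fun i _ => S.db (hD.sB q p i) i)

lemma S.Fo {B : κ → κ → J → E → ℝ} {C : κ → κ → E → ℝ} (hB : ∀ p q i, S (B p q i))
    (hC : ∀ p q, S (C p q)) (hf : ∀ q, S (f q)) (p : κ) : S (Fo e B C f p) :=
  S.sum fun q _ => (S.sum fun i _ => (hB p q i).mul (S.db (hf q) i)).add ((hC p q).mul (hf q))

lemma S.CW (hD : Ok D) (hW : S W) (p q : κ) : S (CW e D W p q) :=
  (hD.sC p q).add (S.sum fun i _ => (hD.sB p q i).mul (S.db hW i))

lemma S.LV (hD : Ok D) (hf : ∀ q, S (f q)) (p : κ) : S (LV e D f p) :=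
  (S.Ld hD.sa (hf p)).add (S.Fo hD.sB hD.sC hf p)

lemma S.KV (hD : Ok D) (hW : S W) (hf : ∀ q, S (f q)) (p : κ) : S (KV e D W f p) :=
  (S.Qd hD.sa hW.neg (hf p)).add (S.Fo hD.sB (fun p q => S.CW hD hW p q) hf p)

/-! ## Products and linearity -/

lemma Fo_mul {B : κ → κ → J → E → ℝ} {C : κ → κ → E → ℝ} {χ : E → ℝ} (hχ : S χ)
    (hf : ∀ q, S (f q)) (p : κ) (z : E) :
    Fo e B C (fun q z => χ z * f q z) p z
      = χ z * Fo e B C f p z + ∑ q, (∑ i, B p q i z * db e i χ z) * f q z := by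
  unfold Fo
  rw [Finset.mul_sum, ← Finset.sum_add_distrib]
  refine Finset.sum_congr rfl fun q _ => ?_
  have h1 : ∑ i, B p q i z * db e i (fun z => χ z * f q z) z
      = χ z * ∑ i, B p q i z * db e i (f q) z + (∑ i, B p q i z * db e i χ z) * f q z := by
    rw [Finset.mul_sum, Finset.sum_mul, ← Finset.sum_add_distrib]
    refine Finset.sum_congr rfl fun i _ => ?_
    rw [db_mul hχ (hf q)]
    ring
  rw [h1]
  ring

lemma Fo_add {B : κ → κ → J → E → ℝ} {C : κ → κ → E → ℝ} (hf : ∀ q, S (f q)) (hg : ∀ q, S (g q))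
    (p : κ) (z : E) :
    Fo e B C (fun q z => f q z + g q z) p z = Fo e B C f p z + Fo e B C g p z := by
  unfold Fo
  rw [← Finset.sum_add_distrib]
  refine Finset.sum_congr rfl fun q _ => ?_
  have h1 : ∑ i, B p q i z * db e i (fun z => f q z + g q z) z
      = ∑ i, B p q i z * db e i (f q) z + ∑ i, B p q i z * db e i (g q) z := by
    rw [← Finset.sum_add_distrib]
    refine Finset.sum_congr rfl fun i _ => ?_
    rw [db_add (hf q) (hg q)]
    ring
  rw [h1]
  ring

lemma Fo_smul {B : κ → κ → J → E → ℝ} {C : κ → κ → E → ℝ} (c : ℝ) (hf : ∀ q, S (f q))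
    (p : κ) (z : E) :
    Fo e B C (fun q z => c * f q z) p z = c * Fo e B C f p z := by
  unfold Fo
  rw [Finset.mul_sum]
  refine Finset.sum_congr rfl fun q _ => ?_
  have h1 : ∑ i, B p q i z * db e i (fun z => c * f q z) z
      = c * ∑ i, B p q i z * db e i (f q) z := by
    rw [Finset.mul_sum]
    refine Finset.sum_congr rfl fun i _ => ?_
    rw [db_smul c (hf q)]
    ring
  rw [h1]
  ring

lemma KV_add (hD : Ok D) (hf : ∀ q, S (f q)) (hg : ∀ q, S (g q)) (p : κ) (z : E) :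
    KV e D W (fun q z => f q z + g q z) p z = KV e D W f p z + KV e D W g p z := by
  unfold KV
  rw [Qd_add hD.sa (hf p) (hg p), Fo_add hf hg]
  ring

lemma KV_smul (hD : Ok D) (c : ℝ) (hf : ∀ q, S (f q)) (p : κ) (z : E) :
    KV e D W (fun q z => c * f q z) p z = c * KV e D W f p z := by
  unfold KV
  rw [Qd_smul hD.sa c (hf p), Fo_smul c hf]
  ring

lemma KV_mul (hD : Ok D) {χ : E → ℝ} (hχ : S χ) (hf : ∀ q, S (f q)) (p : κ) (z : E) :
    KV e D W (fun q z => χ z * f q z) p z = χ z * KV e D W f p z + 2 * Gm e D.a χ (f p) z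
      + 2 * Gm e D.a W χ z * f p z + Ld e D.a χ z * f p z
      + ∑ q, (∑ i, D.B p q i z * db e i χ z) * f q z := by
  unfold KV
  rw [Qd_mul hD.sa hD.ss hχ (hf p), Fo_mul hχ hf, Gm_neg_left]
  ring

/-! ## Conjugation -/

lemma Fo_exp (hW : S W) (hf : ∀ q, S (f q)) (p : κ) (z : E) :
    Fo e D.B D.C (fun q z => Real.exp (W z) * f q z) p z
      = Real.exp (W z) * Fo e D.B (CW e D W) f p z := by
  rw [Fo_mul hW.exp hf]
  unfold Fo CW
  rw [Finset.mul_sum, Finset.mul_sum, ← Finset.sum_add_distrib]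
  refine Finset.sum_congr rfl fun q _ => ?_
  have h1 : ∑ i, D.B p q i z * db e i (fun z => Real.exp (W z)) z
      = Real.exp (W z) * ∑ i, D.B p q i z * db e i W z := by
    rw [Finset.mul_sum]
    refine Finset.sum_congr rfl fun i _ => ?_
    rw [db_exp hW]
    ring
  rw [h1]
  ring

/-- `L (e^W f) = e^W K f` -/
lemma LV_exp (hD : Ok D) (hW : S W) (hf : ∀ q, S (f q)) (p : κ) (z : E) :
    LV e D (fun q z => Real.exp (W z) * f q z) p z = Real.exp (W z) * KV e D W f p z := by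
  unfold LV KV
  rw [Fo_exp hW hf]
  have h1 := Qd_eq (e := e) hD.sa hD.ss hW.neg (hf p) z
  have h2 : (fun w => Real.exp (-(fun z => -W z) w) * f p w) = fun w => Real.exp (W w) * f p w := by
    ext w
    simp
  rw [h2] at h1
  rw [h1, mul_add, ← mul_assoc, ← Real.exp_add]
  simp

lemma KV_eq (hD : Ok D) (hW : S W) (hf : ∀ q, S (f q)) (p : κ) (z : E) :
    KV e D W f p z = Real.exp (-W z) * LV e D (fun q z => Real.exp (W z) * f q z) p z := by
  rw [LV_exp hD hW hf, ← mul_assoc, ← Real.exp_add]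
  simp

/-! ## Supports -/

lemma Fo_congr {B : κ → κ → J → E → ℝ} {C : κ → κ → E → ℝ} {z : E}
    (h : ∀ q, f q =ᶠ[𝓝 z] g q) (p : κ) : Fo e B C f p =ᶠ[𝓝 z] Fo e B C g p := by
  have h1 := eventually_all.2 fun q => eventually_all.2 fun i => db_congr (e := e) (h q) i
  have h2 := eventually_all.2 fun q => h q
  filter_upwards [h1, h2] with w k1 k2
  unfold Fo
  refine Finset.sum_congr rfl fun q _ => ?_
  rw [k2 q]
  congr 1
  exact Finset.sum_congr rfl fun i _ => by rw [k1 q i]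

lemma KV_congr {z : E} (h : ∀ q, f q =ᶠ[𝓝 z] g q) (p : κ) :
    KV e D W f p =ᶠ[𝓝 z] KV e D W g p := by
  have h1 := Qd_congr (e := e) (a := D.a) (EventuallyEq.refl (𝓝 z) fun z => -W z) (h p)
  filter_upwards [h1, Fo_congr (e := e) (B := D.B) (C := CW e D W) h p] with w k1 k2
  unfold KV
  rw [k1, k2]

lemma LV_congr {z : E} (h : ∀ q, f q =ᶠ[𝓝 z] g q) (p : κ) :
    LV e D f p =ᶠ[𝓝 z] LV e D g p := by
  have h1 := Ld_congr (e := e) (a := D.a) (h p)
  filter_upwards [h1, Fo_congr (e := e) (B := D.B) (C := D.C) h p] with w k1 k2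
  unfold LV
  rw [k1, k2]

lemma Fo_zero {B : κ → κ → J → E → ℝ} {C : κ → κ → E → ℝ} (p : κ) :
    Fo e B C (fun _ _ => (0 : ℝ)) p = fun _ => 0 := by
  ext z
  unfold Fo
  simp [db_const]

lemma KV_zero (p : κ) : KV e D W (fun _ _ => (0 : ℝ)) p = fun _ => 0 := by
  ext z
  unfold KV
  rw [Qd_zero, Fo_zero]
  simp

/-- The union of the supports. -/
lemma ts_KV (p : κ) : tsupport (KV e D W f p) ⊆ ⋃ q, tsupport (f q) := by
  intro z hz
  by_contra hn
  rw [mem_iUnion, not_exists] at hn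
  have h1 : ∀ q, f q =ᶠ[𝓝 z] fun _ => (0 : ℝ) := fun q => notMem_tsupport_iff_eventuallyEq.1 (hn q)
  have h2 := KV_congr (e := e) (D := D) (W := W) h1 p
  rw [show KV e D W (fun _ _ => (0 : ℝ)) p = fun _ => (0 : ℝ) from KV_zero p] at h2
  exact (notMem_tsupport_iff_eventuallyEq.2 h2) hz

lemma cs_KV (hf : ∀ q, HasCompactSupport (f q)) (p : κ) : HasCompactSupport (KV e D W f p) :=
  HasCompactSupport.of_support_subset_isCompact (isCompact_iUnion fun q => hf q)
    ((subset_tsupport _).trans (ts_KV p))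

lemma ts_Fo {B : κ → κ → J → E → ℝ} {C : κ → κ → E → ℝ} (p : κ) :
    tsupport (Fo e B C f p) ⊆ ⋃ q, tsupport (f q) := by
  intro z hz
  by_contra hn
  rw [mem_iUnion, not_exists] at hn
  have h1 : ∀ q, f q =ᶠ[𝓝 z] fun _ => (0 : ℝ) := fun q => notMem_tsupport_iff_eventuallyEq.1 (hn q)
  have h2 := Fo_congr (e := e) (B := B) (C := C) h1 p
  rw [show Fo e B C (fun _ _ => (0 : ℝ)) p = fun _ => (0 : ℝ) from Fo_zero p] at h2
  exact (notMem_tsupport_iff_eventuallyEq.2 h2) hz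

lemma cs_Fo {B : κ → κ → J → E → ℝ} {C : κ → κ → E → ℝ} (hf : ∀ q, HasCompactSupport (f q))
    (p : κ) : HasCompactSupport (Fo e B C f p) :=
  HasCompactSupport.of_support_subset_isCompact (isCompact_iUnion fun q => hf q)
    ((subset_tsupport _).trans (ts_Fo p))

end Vale.Agent.P088.R2.H349.V
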