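import Vale.Agent.P088.R2.H349.V.V1

/-!
# P088, stage 4: SOL3 for systems, integration by parts
-/

open MeasureTheory Set Filter
open scoped ContDiff Matrix Topology

noncomputable section

set_option linter.unusedSectionVars false

namespace Vale.Agent.P088.R2.H349.V

open Vale.Agent.P088.LR Vale.Agent.P088.HY Vale.Agent.P088.R2.H269

variable {J κ E : Type} [Fintype J] [Fintype κ] [NormedAddCommGroup E] [NormedSpace ℝ E]
  {e : J → E} {D : Cf J κ E} {W : E → ℝ} {f g h : κ → E → ℝ}
  [FiniteDimensional ℝ E] [MeasurableSpace E] [BorelSpace E] {μ : Measure E}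
  [μ.IsAddHaarMeasure]

/-- One term. -/
lemma ibp_one {u v b : E → ℝ} (hu : S u) (hv : S v) (hb : S b)
    (hc : HasCompactSupport u ∨ HasCompactSupport v) (i : J) :
    ∫ z, u z * (b z * db e i v z) ∂μ
      = ∫ z, (-(b z) * db e i u z - db e i b z * u z) * v z ∂μ := by
  have h1 := ibp_db (μ := μ) (e := e) (hu.mul hb) hv (hc.imp (fun h => cs_mul_right h) id) i
  have e1 : ∫ z, u z * (b z * db e i v z) ∂μ = ∫ z, (u z * b z) * db e i v z ∂μ := by
    congr 1
    ext z
    ring
  rw [e1]
  have h2 : ∫ z, (u z * b z) * db e i v z ∂μ = -∫ z, db e i (fun z => u z * b z) z * v z ∂μ := h1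
  rw [h2, ← integral_neg]
  congr 1
  ext z
  rw [db_mul hu hb]
  ring

lemma int_Fo_pq {u v c : E → ℝ} {b : J → E → ℝ} (hu : S u) (hv : S v) (hb : ∀ i, S (b i))
    (hcs : S c) (hc : HasCompactSupport u ∨ HasCompactSupport v) :
    ∫ z, u z * (∑ i, b i z * db e i v z + c z * v z) ∂μ
      = ∫ z, (∑ i, -(b i z) * db e i u z + (c z - ∑ i, db e i (b i) z) * u z) * v z ∂μ := by
  have or2 : ∀ {F : E → ℝ}, tsupport F ⊆ tsupport u → tsupport F ⊆ tsupport v →
      HasCompactSupport F := fun h1 h2 => cs_or hc h1 h2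
  have i1 : ∀ i, Integrable (fun z => u z * (b i z * db e i v z)) μ := fun i =>
    S.int (hu.mul ((hb i).mul (hv.db i))) (or2 (ts_mul_left _ _)
      ((ts_mul_right _ _).trans ((ts_mul_right _ _).trans (ts_db i v))))
  have i2 : Integrable (fun z => u z * (c z * v z)) μ :=
    S.int (hu.mul (hcs.mul hv)) (or2 (ts_mul_left _ _) ((ts_mul_right _ _).trans (ts_mul_right _ _)))
  have i3 : ∀ i, Integrable (fun z => (-(b i z) * db e i u z - db e i (b i) z * u z) * v z) μ := by
    intro i
    refine S.int ((((hb i).neg.mul (hu.db i)).sub (((hb i).db i).mul hu)).mul hv)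
      (or2 ((ts_mul_left _ _).trans ?_) (ts_mul_right _ _))
    intro z hz
    by_contra hn
    have h1 : u =ᶠ[𝓝 z] fun _ => (0 : ℝ) := notMem_tsupport_iff_eventuallyEq.1 hn
    refine (notMem_tsupport_iff_eventuallyEq.2 ?_) hz
    filter_upwards [h1, db_congr (e := e) h1 i] with w k1 k2
    rw [k1, k2, db_const]
    simp
  have l : ∫ z, u z * (∑ i, b i z * db e i v z + c z * v z) ∂μ
      = ∑ i, ∫ z, u z * (b i z * db e i v z) ∂μ + ∫ z, u z * (c z * v z) ∂μ := by
    rw [← integral_finsetSum _ fun i _ => i1 i,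
      ← integral_add (integrable_finsetSum _ fun i _ => i1 i) i2]
    congr 1
    ext z
    rw [mul_add, Finset.mul_sum]
  have r : ∫ z, (∑ i, -(b i z) * db e i u z + (c z - ∑ i, db e i (b i) z) * u z) * v z ∂μ
      = ∑ i, ∫ z, (-(b i z) * db e i u z - db e i (b i) z * u z) * v z ∂μ
        + ∫ z, u z * (c z * v z) ∂μ := by
    rw [← integral_finsetSum _ fun i _ => i3 i,
      ← integral_add (integrable_finsetSum _ fun i _ => i3 i) i2]
    congr 1
    ext z
    rw [← Finset.sum_mul, Finset.sum_sub_distrib, ← Finset.sum_mul]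
    ring
  rw [l, r]
  congr 1
  exact Finset.sum_congr rfl fun i _ => ibp_one hu hv (hb i) hc i

/-- The adjoint of the first order terms. -/
lemma int_Fo {B : κ → κ → J → E → ℝ} {C : κ → κ → E → ℝ} (hB : ∀ p q i, S (B p q i))
    (hC : ∀ p q, S (C p q)) (hf : ∀ q, S (f q)) (hg : ∀ q, S (g q))
    (hc : (∀ q, HasCompactSupport (f q)) ∨ ∀ q, HasCompactSupport (g q)) :
    ∑ p, ∫ z, f p z * Fo e B C g p z ∂μ
      = ∑ p, ∫ z, Fo e (fun p q i z => -B q p i z)
          (fun p q z => C q p z - ∑ i, db e i (B q p i) z) f p z * g p z ∂μ := by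
  have hc' : ∀ p q, HasCompactSupport (f p) ∨ HasCompactSupport (g q) := fun p q =>
    hc.imp (fun h => h p) fun h => h q
  have or2 : ∀ p q, ∀ {F : E → ℝ}, tsupport F ⊆ tsupport (f p) → tsupport F ⊆ tsupport (g q) →
      HasCompactSupport F := fun p q _ h1 h2 => cs_or (hc' p q) h1 h2
  have i1 : ∀ p q, Integrable (fun z => f p z * (∑ i, B p q i z * db e i (g q) z
      + C p q z * g q z)) μ := by
    intro p q
    refine S.int ((hf p).mul ((S.sum fun i _ => (hB p q i).mul ((hg q).db i)).add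
      ((hC p q).mul (hg q)))) (or2 p q (ts_mul_left _ _) ((ts_mul_right _ _).trans ?_))
    intro z hz
    by_contra hn
    have h1 : g q =ᶠ[𝓝 z] fun _ => (0 : ℝ) := notMem_tsupport_iff_eventuallyEq.1 hn
    have h2 := eventually_all.2 fun i => db_congr (e := e) h1 i
    refine (notMem_tsupport_iff_eventuallyEq.2 ?_) hz
    filter_upwards [h1, h2] with w k1 k2
    simp only [k1, k2, db_const]
    simp
  have i2 : ∀ p q, Integrable (fun z => (∑ i, -B q p i z * db e i (f q) z
      + (C q p z - ∑ i, db e i (B q p i) z) * f q z) * g p z) μ := by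
    intro p q
    refine S.int (((S.sum fun i _ => (hB q p i).neg.mul ((hf q).db i)).add
      (((hC q p).sub (S.sum fun i _ => (hB q p i).db i)).mul (hf q))).mul (hg p))
      (or2 q p ((ts_mul_left _ _).trans ?_) (ts_mul_right _ _))
    intro z hz
    by_contra hn
    have h1 : f q =ᶠ[𝓝 z] fun _ => (0 : ℝ) := notMem_tsupport_iff_eventuallyEq.1 hn
    have h2 := eventually_all.2 fun i => db_congr (e := e) h1 i
    refine (notMem_tsupport_iff_eventuallyEq.2 ?_) hz
    filter_upwards [h1, h2] with w k1 k2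
    simp only [k1, k2, db_const]
    simp
  have l : ∀ p, ∫ z, f p z * Fo e B C g p z ∂μ
      = ∑ q, ∫ z, f p z * (∑ i, B p q i z * db e i (g q) z + C p q z * g q z) ∂μ := by
    intro p
    rw [← integral_finsetSum _ fun q _ => i1 p q]
    congr 1
    ext z
    unfold Fo
    rw [Finset.mul_sum]
  have r : ∀ p, ∫ z, Fo e (fun p q i z => -B q p i z)
      (fun p q z => C q p z - ∑ i, db e i (B q p i) z) f p z * g p z ∂μ
      = ∑ q, ∫ z, (∑ i, -B q p i z * db e i (f q) z
      + (C q p z - ∑ i, db e i (B q p i) z) * f q z) * g p z ∂μ := by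
    intro p
    rw [← integral_finsetSum _ fun q _ => i2 p q]
    congr 1
    ext z
    unfold Fo
    rw [Finset.sum_mul]
  rw [Finset.sum_congr rfl fun p _ => l p, Finset.sum_congr rfl fun p _ => r p, Finset.sum_comm]
  refine Finset.sum_congr rfl fun q _ => Finset.sum_congr rfl fun p _ => ?_
  exact int_Fo_pq (hf p) (hg q) (hB p q) (hC p q) (hc' p q)

lemma tr_CW (p q : κ) (z : E) : CW e (tr e D) (fun z => -W z) p q z
    = CW e D W q p z - ∑ i, db e i (D.B q p i) z := by
  unfold CW tr
  simp only [db_neg]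
  simp only [neg_mul_neg]
  ring

/-- The adjoint. -/
theorem int_KV (hD : Ok D) (hW : S W) (hf : ∀ q, S (f q)) (hg : ∀ q, S (g q))
    (hc : (∀ q, HasCompactSupport (f q)) ∨ ∀ q, HasCompactSupport (g q)) :
    ∑ p, ∫ z, f p z * KV e D W g p z ∂μ
      = ∑ p, ∫ z, KV e (tr e D) (fun z => -W z) f p z * g p z ∂μ := by
  have hc' : ∀ p q, HasCompactSupport (f p) ∨ HasCompactSupport (g q) := fun p q =>
    hc.imp (fun h => h p) fun h => h q
  have cB : ∀ p q i, S (D.B p q i) := hD.sB
  have cC : ∀ p q, S (CW e D W p q) := fun p q => S.CW hD hW p q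
  have key := int_Fo (μ := μ) (e := e) cB cC hf hg hc
  have q1 : ∀ p, ∫ z, f p z * Qd e D.a (fun z => -W z) (g p) z ∂μ
      = ∫ z, Qd e D.a W (f p) z * g p z ∂μ := fun p =>
    int_Qd hD.sa hD.ss hW (hf p) (hg p) (hc' p p)
  have Ia : ∀ p, Integrable (fun z => f p z * Qd e D.a (fun z => -W z) (g p) z) μ := fun p =>
    S.int ((hf p).mul (S.Qd hD.sa hW.neg (hg p))) (cs_or (hc' p p) (ts_mul_left _ _)
      ((ts_mul_right _ _).trans (ts_Qd _)))
  have Ib : ∀ p, Integrable (fun z => f p z * Fo e D.B (CW e D W) g p z) μ := by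
    intro p
    refine S.int ((hf p).mul (S.Fo cB cC hg p)) ?_
    rcases hc with h | h
    · exact cs_mul_right (h p)
    · exact cs_mul_left (cs_Fo h p)
  have Ic : ∀ p, Integrable (fun z => Qd e D.a W (f p) z * g p z) μ := fun p =>
    S.int ((S.Qd hD.sa hW (hf p)).mul (hg p)) (cs_or (hc' p p)
      ((ts_mul_left _ _).trans (ts_Qd _)) (ts_mul_right _ _))
  have Id : ∀ p, Integrable (fun z => Fo e (fun p q i z => -D.B q p i z)
      (fun p q z => CW e D W q p z - ∑ i, db e i (D.B q p i) z) f p z * g p z) μ := by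
    intro p
    refine S.int ((S.Fo (fun p q i => (cB q p i).neg)
      (fun p q => (cC q p).sub (S.sum fun i _ => (cB q p i).db i)) hf p).mul (hg p)) ?_
    rcases hc with h | h
    · exact cs_mul_right (cs_Fo h p)
    · exact cs_mul_left (h p)
  have l : ∀ p, ∫ z, f p z * KV e D W g p z ∂μ
      = ∫ z, f p z * Qd e D.a (fun z => -W z) (g p) z ∂μ
        + ∫ z, f p z * Fo e D.B (CW e D W) g p z ∂μ := by
    intro p
    rw [← integral_add (Ia p) (Ib p)]
    congr 1
    ext z
    unfold KV
    ring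
  have r : ∀ p, ∫ z, KV e (tr e D) (fun z => -W z) f p z * g p z ∂μ
      = ∫ z, Qd e D.a W (f p) z * g p z ∂μ
        + ∫ z, Fo e (fun p q i z => -D.B q p i z)
      (fun p q z => CW e D W q p z - ∑ i, db e i (D.B q p i) z) f p z * g p z ∂μ := by
    intro p
    rw [← integral_add (Ic p) (Id p)]
    congr 1
    ext z
    have h1 : CW e (tr e D) (fun z => -W z)
        = fun p q z => CW e D W q p z - ∑ i, db e i (D.B q p i) z := by
      ext p q z
      exact tr_CW p q z
    unfold KV
    rw [h1]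
    simp only [neg_neg]
    unfold tr
    ring
  rw [Finset.sum_congr rfl fun p _ => l p, Finset.sum_congr rfl fun p _ => r p,
    Finset.sum_add_distrib, Finset.sum_add_distrib, key, Finset.sum_congr rfl fun p _ => q1 p]

end Vale.Agent.P088.R2.H349.V
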