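import Vale.Agent.P088.R2.H349.V.V2

/-!
# P088, stage 4: SOL3 for systems, the pointwise inequality
-/

open MeasureTheory Set Filter
open scoped ContDiff Matrix Topology

noncomputable section

set_option linter.unusedSectionVars false

namespace Vale.Agent.P088.R2.H349.V

open Vale.Agent.P088.LR Vale.Agent.P088.HY Vale.Agent.P088.R2.H269

/-- second part of the Caccioppoli term -/
lemma pw2 {w p g q D Gg GW Gf Ph LW m C : ℝ} (hC : 0 ≤ C)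
    (hw0 : 0 ≤ w) (hw1 : w ≤ 1) (hp0 : 0 ≤ p) (hp1 : p ≤ 1)
    (hGg : 0 ≤ Gg) (hGW : 0 ≤ GW) (hGf : 0 ≤ Gf) (hm : 0 ≤ m)
    (hD : D ^ 2 ≤ GW * Gg)
    (hP : Ph ^ 2 ≤ Gf * Gg)
    (c2 : m ≤ C) (c3 : m * GW ≤ C) (c4 : m * |LW| ≤ C)
    (c6 : m * Gf ≤ C) :
    -(w ^ 4 * q ^ 2 / 8) + 128 * m * ((w * p) ^ 2 * Gg) - (2 ^ 20 * (C + 1) ^ 2) * g ^ 2 ≤
      256 * m * ((w * p) ^ 2 * g * (q + 2 * D - (GW - LW) * g) + (w * p) ^ 2 * Gg
        + 2 * ((w * p) * g * Ph)) := by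
  have p2 : p ^ 2 ≤ 1 := pow_le_one₀ hp0 hp1
  have wp2 : (w * p) ^ 2 ≤ 1 := pow_le_one₀ (mul_nonneg hw0 hp0) (mul_le_one₀ hw1 hp0 hp1)
  have t3 : -((w ^ 2 * q) ^ 2 / 8 + 2 * (256 * m * p ^ 2 * g) ^ 2)
      ≤ (w ^ 2 * q) * (256 * m * p ^ 2 * g) := am
  have t4 : -(Gg / 4 + 4 * (g ^ 2 * GW)) ≤ 2 * (g * D) := cs_am hD hGW hGg
  have t5 : -(((w * p) ^ 2 * Gg) / 4 + 4 * (g ^ 2 * Gf)) ≤ 2 * (g * ((w * p) * Ph)) := by
    refine cs_am ?_ hGf (by positivity)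
    calc ((w * p) * Ph) ^ 2 = (w * p) ^ 2 * Ph ^ 2 := by ring
      _ ≤ (w * p) ^ 2 * (Gf * Gg) := mul_le_mul_of_nonneg_left hP (sq_nonneg _)
      _ = _ := by ring
  have k2 := pw_c (g := g) hm c2 p2
  have k3 := pw_d (g := g) hm (sq_nonneg (w * p)) wp2 hGW c3 c4
  have k4 := pw_e (g := g) hm wp2 hGW c3
  have k5 : m * (g ^ 2 * Gf) ≤ C * g ^ 2 := by
    calc m * (g ^ 2 * Gf) = m * Gf * g ^ 2 := by ring
      _ ≤ _ := mul_le_mul_of_nonneg_right c6 (sq_nonneg g)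
  have k7 : m * ((w * p) ^ 2 * (-(Gg / 4 + 4 * (g ^ 2 * GW)))) ≤ m * ((w * p) ^ 2 * (2 * (g * D))) :=
    mul_le_mul_of_nonneg_left (mul_le_mul_of_nonneg_left t4 (sq_nonneg _)) hm
  have k8 : m * (-(((w * p) ^ 2 * Gg) / 4 + 4 * (g ^ 2 * Gf))) ≤ m * (2 * (g * ((w * p) * Ph))) :=
    mul_le_mul_of_nonneg_left t5 hm
  have g0 := sq_nonneg g
  have Cg : 0 ≤ C * g ^ 2 := by positivity
  have C2g : 0 ≤ C ^ 2 * g ^ 2 := by positivity
  linarith only [t3, k2, k3, k4, k5, k7, k8, g0, Cg, C2g]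

/-- the scalar inequality with first order terms -/
lemma pwV {w p g q A B D Gg Gw GW Gf Ph Lw LW m C β R : ℝ} (hC : 0 ≤ C)
    (hw0 : 0 ≤ w) (hw1 : w ≤ 1) (hp0 : 0 ≤ p) (hp1 : p ≤ 1)
    (hGg : 0 ≤ Gg) (hGw : 0 ≤ Gw) (hGW : 0 ≤ GW) (hGf : 0 ≤ Gf) (hm : 0 ≤ m)
    (hA : A ^ 2 ≤ Gw * Gg) (hB : B ^ 2 ≤ Gw * GW) (hD : D ^ 2 ≤ GW * Gg)
    (hP : Ph ^ 2 ≤ Gf * Gg)
    (c1 : Gw ≤ m) (c2 : m ≤ C) (c3 : m * GW ≤ C) (c4 : m * |LW| ≤ C) (c5 : |Lw| ≤ C)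
    (c6 : m * Gf ≤ C) (hc : p = 1 ∨ A = 0) {σ : ℝ} (hσ : 0 < σ) :
    w ^ 4 * q ^ 2 / 4 + 128 * m * ((w * p) ^ 2 * Gg) - (2 ^ 21 * (C + 1) ^ 2) * g ^ 2
      - 32 * β ^ 2 - 512 * m * ((w * p) ^ 2 * (σ * R ^ 2 + g ^ 2 / (4 * σ))) ≤
      q * (w ^ 4 * q + 8 * w ^ 3 * A - 8 * w ^ 3 * B * g + (4 * w ^ 3 * Lw + 12 * w ^ 2 * Gw) * g
        + 4 * w ^ 3 * β)
      + 512 * m * ((w * p) ^ 2 * g * ((q - R) + 2 * D - (GW - LW) * g) + (w * p) ^ 2 * Gg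
        + 2 * ((w * p) * g * Ph)) := by
  have a1 := pw (q := q) hC hw0 hw1 hp0 hp1 hGg hGw hGW hGf hm hA hB hD hP c1 c2 c3 c4 c5 c6 hc
    (g := g)
  have a2 := pw2 (q := q) (g := g) hC hw0 hw1 hp0 hp1 hGg hGW hGf hm hD hP c2 c3 c4 c6
  have t6 : -((w ^ 2 * q) ^ 2 / 8 + 2 * (4 * w * β) ^ 2) ≤ (w ^ 2 * q) * (4 * w * β) := am
  have w2 : w ^ 2 ≤ 1 := pow_le_one₀ hw0 hw1
  have t7 : w ^ 2 * β ^ 2 ≤ 1 * β ^ 2 := mul_le_mul_of_nonneg_right w2 (sq_nonneg β)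
  have t8 : g * R ≤ σ * R ^ 2 + g ^ 2 / (4 * σ) := by
    have h0 : σ * R ^ 2 + g ^ 2 / (4 * σ) - g * R = (2 * σ * R - g) ^ 2 / (4 * σ) := by
      field_simp
      ring
    have h1 : 0 ≤ (2 * σ * R - g) ^ 2 / (4 * σ) := by positivity
    linarith
  have t9 : 512 * m * ((w * p) ^ 2 * (g * R))
      ≤ 512 * m * ((w * p) ^ 2 * (σ * R ^ 2 + g ^ 2 / (4 * σ))) :=
    mul_le_mul_of_nonneg_left (mul_le_mul_of_nonneg_left t8 (sq_nonneg _)) (by positivity)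
  linarith only [a1, a2, t6, t7, t9]

variable {J κ E : Type} [Fintype J] [Fintype κ] [NormedAddCommGroup E] [NormedSpace ℝ E]
  {e : J → E} {D : Cf J κ E} {W χ ψ : E → ℝ} {f g h : κ → E → ℝ}

lemma sum_sq_le (f : κ → ℝ) : (∑ q, f q) ^ 2 ≤ Fintype.card κ * ∑ q, f q ^ 2 := by
  have := sq_sum_le_card_mul_sum_sq (s := (Finset.univ : Finset κ)) (f := f)
  simpa using this

/-- dominated first order terms -/
structure Dm (e : J → E) (D : Cf J κ E) (b : ℝ) : Prop where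
  B : ∀ p q z (ξ : J → ℝ), (∑ i, D.B p q i z * ξ i) ^ 2 ≤ b * ∑ i, ∑ j, D.a i j z * (ξ i * ξ j)
  C : ∀ p q z, |(tr e D).C p q z| ≤ b

lemma KT_eq (p : κ) (z : E) : KV e D (fun z => -W z) g p z
    = Qd e D.a W (g p) z + Fo e D.B (CW e D fun z => -W z) g p z := by
  unfold KV
  simp only [neg_neg]

/-- the bound of the derivative of the cut-off -/
lemma be_le {b : ℝ} (hB : ∀ p q z (ξ : J → ℝ),
    (∑ i, D.B p q i z * ξ i) ^ 2 ≤ b * ∑ i, ∑ j, D.a i j z * (ξ i * ξ j)) (z : E) :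
    ∑ p, (∑ q, (∑ i, D.B p q i z * db e i χ z) * g q z) ^ 2
      ≤ Fintype.card κ ^ 2 * b * Gm e D.a χ χ z * ∑ q, g q z ^ 2 := by
  have h1 : ∀ p, (∑ q, (∑ i, D.B p q i z * db e i χ z) * g q z) ^ 2
      ≤ Fintype.card κ * (b * Gm e D.a χ χ z * ∑ q, g q z ^ 2) := by
    intro p
    refine (sum_sq_le _).trans (mul_le_mul_of_nonneg_left ?_ (Nat.cast_nonneg _))
    rw [Finset.mul_sum]
    refine Finset.sum_le_sum fun q _ => ?_
    rw [mul_pow]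
    exact mul_le_mul_of_nonneg_right (hB p q z fun i => db e i χ z) (sq_nonneg _)
  refine (Finset.sum_le_sum fun p _ => h1 p).trans (le_of_eq ?_)
  rw [Finset.sum_const, Finset.card_univ, nsmul_eq_mul]
  ring

/-- the bound of the first order terms -/
lemma Fo_le {B : κ → κ → J → E → ℝ} {C : κ → κ → E → ℝ} {a : J → J → E → ℝ} {b c : ℝ} (z : E)
    (hB : ∀ p q (ξ : J → ℝ),
      (∑ i, B p q i z * ξ i) ^ 2 ≤ b * ∑ i, ∑ j, a i j z * (ξ i * ξ j))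
    (hC : ∀ p q, C p q z ^ 2 ≤ c) :
    ∑ p, Fo e B C g p z ^ 2
      ≤ Fintype.card κ ^ 2 * (2 * b * ∑ q, Gm e a (g q) (g q) z + 2 * c * ∑ q, g q z ^ 2) := by
  have h1 : ∀ p, Fo e B C g p z ^ 2
      ≤ Fintype.card κ * (2 * b * ∑ q, Gm e a (g q) (g q) z + 2 * c * ∑ q, g q z ^ 2) := by
    intro p
    refine (sum_sq_le _).trans (mul_le_mul_of_nonneg_left ?_ (Nat.cast_nonneg _))
    rw [Finset.mul_sum, Finset.mul_sum, ← Finset.sum_add_distrib]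
    refine Finset.sum_le_sum fun q _ => ?_
    have h2 := hB p q fun i => db e i (g q) z
    have h3 : (C p q z * g q z) ^ 2 ≤ c * g q z ^ 2 := by
      rw [mul_pow]
      exact mul_le_mul_of_nonneg_right (hC p q) (sq_nonneg _)
    have h4 := sq_nonneg (∑ i, B p q i z * db e i (g q) z - C p q z * g q z)
    unfold H269.Gm
    nlinarith
  refine (Finset.sum_le_sum fun p _ => h1 p).trans (le_of_eq ?_)
  rw [Finset.sum_const, Finset.card_univ, nsmul_eq_mul]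
  ring

lemma CW_sq {b : ℝ} (z : E) (hB : ∀ p q (ξ : J → ℝ),
    (∑ i, D.B p q i z * ξ i) ^ 2 ≤ b * ∑ i, ∑ j, D.a i j z * (ξ i * ξ j))
    (hC : ∀ p q, |D.C p q z| ≤ b) (p q : κ) :
    CW e D (fun z => -W z) p q z ^ 2 ≤ 2 * b ^ 2 + 2 * b * Gm e D.a W W z := by
  have h1 := hB p q fun i => db e i (fun z => -W z) z
  have h2 : ∑ i, ∑ j, D.a i j z * (db e i (fun z => -W z) z * db e j (fun z => -W z) z)
      = Gm e D.a W W z := by
    unfold H269.Gm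
    refine Finset.sum_congr rfl fun i _ => Finset.sum_congr rfl fun j _ => ?_
    rw [db_neg, db_neg]
    ring
  rw [h2] at h1
  have h3 : D.C p q z ^ 2 ≤ b ^ 2 := sq_le_sq' (by linarith [(abs_le.1 (hC p q)).1])
    (abs_le.1 (hC p q)).2
  unfold CW
  nlinarith [sq_nonneg (D.C p q z - ∑ i, D.B p q i z * db e i (fun z => -W z) z)]

/-- the integrand of one operator -/
def TV (e : J → E) (D : Cf J κ E) (W : E → ℝ) (g : κ → E → ℝ) (χ ψ : E → ℝ) (m : ℝ) (z : E) : ℝ :=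
  ∑ p, (KV e D (fun z => -W z) g p z * KV e D (fun z => -W z) (fun q z => p4 χ z * g q z) p z
    + 512 * m * (((χ z * ψ z) ^ 2 * g p z) * Ld e D.a (g p) z
      + (χ z * ψ z) ^ 2 * Gm e D.a (g p) (g p) z
      + 2 * (χ z * ψ z * g p z * Gm e D.a (fun z => χ z * ψ z) (g p) z)))

/-- the constant -/
def CK (K b C : ℝ) : ℝ :=
  2 ^ 21 * (C + 1) ^ 2 + 32 * (K ^ 2 * b * C) + 128 * ((2 * b + 2) * C)
    + 1024 * ((K + 1) ^ 2 * (b + 1) * C)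

lemma CK_nonneg {K b C : ℝ} (hK : 0 ≤ K) (hb : 0 ≤ b) (hC : 0 ≤ C) : 0 ≤ CK K b C := by
  unfold CK
  positivity

lemma KV_p4 (hD : Ok D) (hχ : S χ) (hg : ∀ q, S (g q)) (p : κ) (z : E) :
    KV e D (fun z => -W z) (fun q z => p4 χ z * g q z) p z
      = χ z ^ 4 * KV e D (fun z => -W z) g p z + 8 * χ z ^ 3 * Gm e D.a χ (g p) z
      - 8 * χ z ^ 3 * Gm e D.a χ W z * g p z
      + (4 * χ z ^ 3 * Ld e D.a χ z + 12 * χ z ^ 2 * Gm e D.a χ χ z) * g p z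
      + 4 * χ z ^ 3 * ∑ q, (∑ i, D.B p q i z * db e i χ z) * g q z := by
  rw [KV_mul hD hχ.p4 hg, Ld_p4 hD.sa hD.ss hχ, Gm_p4 hχ, Gm_neg_left, Gm_comm hD.ss W, Gm_p4 hχ]
  have h2 : S (fun z => χ z * χ z) := hχ.mul hχ
  have h1 : ∀ i, db e i (p4 χ) z = 4 * χ z ^ 3 * db e i χ z := by
    intro i
    unfold H269.p4
    rw [db_mul h2 h2, db_mul hχ hχ]
    ring
  have h3 : ∑ q, (∑ i, D.B p q i z * db e i (p4 χ) z) * g q z
      = 4 * χ z ^ 3 * ∑ q, (∑ i, D.B p q i z * db e i χ z) * g q z := by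
    rw [Finset.mul_sum]
    refine Finset.sum_congr rfl fun q _ => ?_
    rw [← mul_assoc, Finset.mul_sum]
    congr 1
    refine Finset.sum_congr rfl fun i _ => ?_
    rw [h1 i]
    ring
  rw [h3]
  unfold H269.p4
  ring

/-- the choice of the parameter -/
def sg (K b : ℝ) : ℝ := 1 / (8 * (K + 1) ^ 2 * (b + 1))

lemma sg_pos {K b : ℝ} (hK : 0 ≤ K) (hb : 0 ≤ b) : 0 < sg K b := by
  unfold sg
  positivity

lemma num_lb {K b C m u GW GG G2 SR SB Gx X : ℝ} (hK : 0 ≤ K) (hb : 0 ≤ b) (hC : 0 ≤ C)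
    (hm : 0 ≤ m) (hmC : m ≤ C) (hu0 : 0 ≤ u) (hu1 : u ≤ 1) (hGW : 0 ≤ GW) (hGG : 0 ≤ GG)
    (hG2 : 0 ≤ G2) (hGx : Gx ≤ m) (c3 : m * GW ≤ C)
    (b1 : SB ≤ K ^ 2 * b * Gx * G2)
    (r1 : SR ≤ K ^ 2 * (2 * b * GG + 2 * (2 * b ^ 2 + 2 * b * GW) * G2)) :
    X - CK K b C * G2 ≤ X + 128 * m * (u * GG) - (2 ^ 21 * (C + 1) ^ 2) * G2 - 32 * SB
      - 512 * m * (u * (sg K b * SR + G2 / (4 * sg K b))) := by
  have σ0 := sg_pos hK hb
  have b2 : K ^ 2 * b * Gx * G2 ≤ K ^ 2 * b * C * G2 := by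
    refine mul_le_mul_of_nonneg_right (mul_le_mul_of_nonneg_left (hGx.trans hmC) ?_) hG2
    positivity
  -- the coefficient
  have s1 : sg K b * K ^ 2 * b ≤ 1 / 8 := by
    unfold sg
    have h1 : K ^ 2 * b ≤ (K + 1) ^ 2 * (b + 1) := by nlinarith
    calc 1 / (8 * (K + 1) ^ 2 * (b + 1)) * K ^ 2 * b
        = (K ^ 2 * b) / ((K + 1) ^ 2 * (b + 1)) / 8 := by field_simp
      _ ≤ 1 / 8 := by
          refine div_le_div_of_nonneg_right ?_ (by norm_num)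
          rw [div_le_one (by positivity)]
          exact h1
  have r2 : sg K b * SR ≤ 1 / 4 * GG + 1 / 4 * (2 * b + 2 * GW) * G2 := by
    have h1 := mul_le_mul_of_nonneg_left r1 σ0.le
    have h2 : sg K b * (K ^ 2 * (2 * b * GG + 2 * (2 * b ^ 2 + 2 * b * GW) * G2))
        = (sg K b * K ^ 2 * b) * (2 * GG + 2 * (2 * b + 2 * GW) * G2) := by ring
    rw [h2] at h1
    have h3 : (sg K b * K ^ 2 * b) * (2 * GG + 2 * (2 * b + 2 * GW) * G2)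
        ≤ 1 / 8 * (2 * GG + 2 * (2 * b + 2 * GW) * G2) :=
      mul_le_mul_of_nonneg_right s1 (by positivity)
    linarith
  have r3 : G2 / (4 * sg K b) = 2 * ((K + 1) ^ 2 * (b + 1)) * G2 := by
    unfold sg
    field_simp
    ring
  have mu0 : 0 ≤ m * u := mul_nonneg hm hu0
  have muC : m * u ≤ C := by
    calc m * u ≤ m * 1 := mul_le_mul_of_nonneg_left hu1 hm
      _ ≤ C := by linarith
  have muG : m * u * GW ≤ C := by
    calc m * u * GW = u * (m * GW) := by ring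
      _ ≤ 1 * (m * GW) := mul_le_mul_of_nonneg_right hu1 (by positivity)
      _ ≤ C := by linarith
  have f1 : 512 * m * (u * (sg K b * SR + G2 / (4 * sg K b)))
      ≤ 128 * m * (u * GG) + (128 * ((2 * b + 2) * C)
        + 1024 * ((K + 1) ^ 2 * (b + 1) * C)) * G2 := by
    rw [r3]
    have h1 := mul_le_mul_of_nonneg_left r2 mu0
    have h2 : m * u * (1 / 4 * GG + 1 / 4 * (2 * b + 2 * GW) * G2)
        = 1 / 4 * (m * u * GG) + 1 / 2 * (b * (m * u) + m * u * GW) * G2 := by ring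
    rw [h2] at h1
    have h3 : (b * (m * u) + m * u * GW) * G2 ≤ (b * C + C) * G2 :=
      mul_le_mul_of_nonneg_right (add_le_add (mul_le_mul_of_nonneg_left muC hb) muG) hG2
    have h4 : m * u * ((K + 1) ^ 2 * (b + 1) * G2) ≤ C * ((K + 1) ^ 2 * (b + 1) * G2) :=
      mul_le_mul_of_nonneg_right muC (by positivity)
    have e1 : 512 * m * (u * (sg K b * SR + 2 * ((K + 1) ^ 2 * (b + 1)) * G2))
        = 512 * (m * u * (sg K b * SR)) + 1024 * (m * u * ((K + 1) ^ 2 * (b + 1) * G2)) := by ring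
    rw [e1]
    have CG : 0 ≤ (b * C + C) * G2 := by positivity
    linarith only [h1, h3, h4, CG]
  have f2 : 32 * SB ≤ 32 * (K ^ 2 * b * C) * G2 := by linarith [b1, b2]
  unfold CK
  linarith only [f1, f2]

lemma TV_key (hD : Ok D) (hg : ∀ q, S (g q)) (hχ : S χ) {m C σ : ℝ} (hC : 0 ≤ C)
    (hm : 0 ≤ m) (hmC : m ≤ C) (σ0 : 0 < σ) {z : E} (hw0 : 0 ≤ χ z) (hw1 : χ z ≤ 1)
    (hp0 : 0 ≤ ψ z) (hp1 : ψ z ≤ 1) (hbd : Bd e D.a W χ ψ m C z) (p : κ) :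
    χ z ^ 4 * KV e D (fun z => -W z) g p z ^ 2 / 4
      + 128 * m * ((χ z * ψ z) ^ 2 * Gm e D.a (g p) (g p) z)
      - (2 ^ 21 * (C + 1) ^ 2) * g p z ^ 2
      - 32 * (∑ q, (∑ i, D.B p q i z * db e i χ z) * g q z) ^ 2
      - 512 * m * ((χ z * ψ z) ^ 2 * (σ * (Fo e D.B (CW e D fun z => -W z) g p z) ^ 2
        + g p z ^ 2 / (4 * σ))) ≤
      KV e D (fun z => -W z) g p z * KV e D (fun z => -W z) (fun q z => p4 χ z * g q z) p z
    + 512 * m * (((χ z * ψ z) ^ 2 * g p z) * Ld e D.a (g p) z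
      + (χ z * ψ z) ^ 2 * Gm e D.a (g p) (g p) z
      + 2 * (χ z * ψ z * g p z * Gm e D.a (fun z => χ z * ψ z) (g p) z)) := by
  have hp := hD.pa
  have hs := hD.ss
  have hL : Ld e D.a (g p) z = (KV e D (fun z => -W z) g p z
      - Fo e D.B (CW e D fun z => -W z) g p z) + 2 * Gm e D.a W (g p) z
      - (Gm e D.a W W z - Ld e D.a W z) * g p z := by
    rw [KT_eq]
    unfold H269.Qd
    ring
  have hA : ψ z = 1 ∨ Gm e D.a χ (g p) z = 0 := by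
    rcases hbd.hc with h | h
    · exact Or.inl h
    · right
      have := Gm_cs (e := e) hp hs χ (g p) z
      rw [h, zero_mul] at this
      exact pow_eq_zero_iff (two_ne_zero) |>.1 (le_antisymm this (sq_nonneg _))
  have h1 := pwV (w := χ z) (p := ψ z) (g := g p z) (q := KV e D (fun z => -W z) g p z)
      (A := Gm e D.a χ (g p) z)
      (B := Gm e D.a χ W z) (D := Gm e D.a W (g p) z) (Gg := Gm e D.a (g p) (g p) z)
      (Gw := Gm e D.a χ χ z)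
      (GW := Gm e D.a W W z) (Gf := Gm e D.a (fun z => χ z * ψ z) (fun z => χ z * ψ z) z)
      (Ph := Gm e D.a (fun z => χ z * ψ z) (g p) z) (Lw := Ld e D.a χ z) (LW := Ld e D.a W z)
      (m := m) (C := C) (β := ∑ q, (∑ i, D.B p q i z * db e i χ z) * g q z)
      (R := Fo e D.B (CW e D fun z => -W z) g p z) hC hw0 hw1 hp0 hp1 (Gm_nonneg hp _ _)
      (Gm_nonneg hp _ _) (Gm_nonneg hp _ _) (Gm_nonneg hp _ _) hm (Gm_cs hp hs _ _ _)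
      (Gm_cs hp hs _ _ _) (Gm_cs hp hs _ _ _) (Gm_cs hp hs _ _ _) hbd.c1 hmC hbd.c3 hbd.c4
      hbd.c5 hbd.c6 hA σ0
  rw [KV_p4 hD hχ hg, hL]
  exact h1

lemma sum_split (x u m c2 c3 σ : ℝ) (q2 GG g2 β2 R2 : κ → ℝ) :
    ∑ p, (x * q2 p / 4 + 128 * m * (u * GG p) - c2 * g2 p - 32 * β2 p
      - 512 * m * (u * (σ * R2 p + g2 p / c3)))
    = x * (∑ p, q2 p) / 4 + 128 * m * (u * ∑ p, GG p) - c2 * (∑ p, g2 p) - 32 * ∑ p, β2 p
      - 512 * m * (u * (σ * (∑ p, R2 p) + (∑ p, g2 p) / c3)) := by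
  simp only [Finset.sum_sub_distrib, Finset.sum_add_distrib, Finset.mul_sum,
      Finset.sum_div, mul_add]

lemma TV_lb (hD : Ok D) (hg : ∀ q, S (g q)) (hχ : S χ) {m C b : ℝ} (hC : 0 ≤ C)
    (hm : 0 ≤ m) (hmC : m ≤ C) (hb : 0 ≤ b) {z : E} (hw0 : 0 ≤ χ z) (hw1 : χ z ≤ 1)
    (hp0 : 0 ≤ ψ z) (hp1 : ψ z ≤ 1) (hbd : Bd e D.a W χ ψ m C z)
    (hB : ∀ p q z (ξ : J → ℝ),
      (∑ i, D.B p q i z * ξ i) ^ 2 ≤ b * ∑ i, ∑ j, D.a i j z * (ξ i * ξ j))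
    (hCb : ∀ p q z, |D.C p q z| ≤ b) :
    χ z ^ 4 * (∑ p, KV e D (fun z => -W z) g p z ^ 2) / 4
      - CK (Fintype.card κ) b C * ∑ p, g p z ^ 2 ≤ TV e D W g χ ψ m z := by
  have K0 : (0 : ℝ) ≤ (Fintype.card κ : ℝ) := Nat.cast_nonneg _
  have σ0 := sg_pos K0 hb
  have sk := Finset.sum_le_sum fun p (_ : p ∈ Finset.univ) =>
    TV_key hD hg hχ hC hm hmC σ0 hw0 hw1 hp0 hp1 hbd p
  rw [sum_split] at sk
  unfold TV
  refine le_trans ?_ sk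
  refine num_lb K0 hb hC hm hmC (sq_nonneg _) (pow_le_one₀ (mul_nonneg hw0 hp0)
    (mul_le_one₀ hw1 hp0 hp1)) (Gm_nonneg hD.pa W z)
    (Finset.sum_nonneg fun p _ => Gm_nonneg hD.pa _ _)
    (Finset.sum_nonneg fun p _ => sq_nonneg _) hbd.c1 hbd.c3 (be_le hB z) ?_
  exact Fo_le z (fun p q => hB p q z) (fun p q => CW_sq z (fun p q => hB p q z)
      (fun p q => hCb p q z) p q)

lemma TV_one {m : ℝ} {z : E} (h1 : χ =ᶠ[𝓝 z] fun _ => 1) (h2 : ψ z = 0) :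
    χ z ^ 4 * (∑ p, KV e D (fun z => -W z) g p z ^ 2) / 4 ≤ TV e D W g χ ψ m z := by
  have e0 : χ z = 1 := h1.self_of_nhds
  have e1 : ∀ q, (fun z => p4 χ z * g q z) =ᶠ[𝓝 z] g q := by
    intro q
    filter_upwards [h1] with w hw
    unfold H269.p4
    rw [hw]
    ring
  have e2 : ∀ p, KV e D (fun z => -W z) (fun q z => p4 χ z * g q z) p z
      = KV e D (fun z => -W z) g p z := fun p => (KV_congr e1 p).self_of_nhds
  unfold TV
  simp only [e2, h2, e0]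
  have h3 : 0 ≤ ∑ p, KV e D (fun z => -W z) g p z ^ 2 :=
    Finset.sum_nonneg fun p _ => sq_nonneg _
  have h4 : ∑ p, (KV e D (fun z => -W z) g p z * KV e D (fun z => -W z) g p z
    + 512 * m * (((1 * (0 : ℝ)) ^ 2 * g p z) * Ld e D.a (g p) z
      + (1 * (0 : ℝ)) ^ 2 * Gm e D.a (g p) (g p) z
      + 2 * (1 * (0 : ℝ) * g p z * Gm e D.a (fun z => χ z * ψ z) (g p) z)))
      = ∑ p, KV e D (fun z => -W z) g p z ^ 2 := by
    refine Finset.sum_congr rfl fun p _ => ?_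
    ring
  rw [h4]
  linarith

lemma TV_zero {m : ℝ} {z : E} (h1 : χ =ᶠ[𝓝 z] fun _ => 0) : TV e D W g χ ψ m z = 0 := by
  have e0 : χ z = 0 := h1.self_of_nhds
  have e1 : ∀ q, (fun z => p4 χ z * g q z) =ᶠ[𝓝 z] (fun _ => (0 : ℝ)) := by
    intro q
    filter_upwards [h1] with w hw
    unfold H269.p4
    rw [hw]
    ring
  have e2 : ∀ p, KV e D (fun z => -W z) (fun q z => p4 χ z * g q z) p z = 0 := by
    intro p
    have := (KV_congr (e := e) (D := D) (W := fun z => -W z) e1 p).self_of_nhds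
    rw [this]
    exact congrFun (KV_zero p) z
  unfold TV
  refine Finset.sum_eq_zero fun p _ => ?_
  rw [e2, e0]
  ring

end Vale.Agent.P088.R2.H349.V
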