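import Vale.Agent.P088.R2.H349.V.V3

/-!
# P088, stage 4: SOL3 for systems, vanishing in the top degree
-/

open MeasureTheory Set Filter
open scoped ContDiff Matrix Topology

noncomputable section

set_option linter.unusedSectionVars false

namespace Vale.Agent.P088.R2.H349.V

open Vale.Agent.P088.LR Vale.Agent.P088.HY Vale.Agent.P088.R2.H269

variable {J κ E ι : Type} [Fintype J] [Fintype κ] [Fintype ι]
  [NormedAddCommGroup E] [NormedSpace ℝ E]
  {e : J → E} {D : ι → Cf J κ E} {W χ ψ : E → ℝ} {f g h : κ → E → ℝ}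
  [FiniteDimensional ℝ E] [MeasurableSpace E] [BorelSpace E] {μ : Measure E}
  [μ.IsAddHaarMeasure]

lemma tr_tr (D : Cf J κ E) : tr e (tr e D) = D := by
  have h1 : ∀ p q z, (tr e (tr e D)).C p q z = D.C p q z := by
    intro p q z
    unfold tr
    simp only [db_neg]
    rw [Finset.sum_neg_distrib]
    ring
  have h2 : (tr e (tr e D)).B = D.B := by
    funext p q i z
    unfold tr
    simp
  have h3 : (tr e (tr e D)).a = D.a := rfl
  have h4 : (tr e (tr e D)).C = D.C := by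
    funext p q z
    exact h1 p q z
  cases hD : tr e (tr e D) with
  | mk a B C =>
    rw [hD] at h2 h3 h4
    simp only at h2 h3 h4
    subst h2 h3 h4
    rfl

/-- the local estimate -/
theorem top_locV (hD : ∀ k, Ok (D k)) {b : ℝ} (hb : 0 ≤ b)
    (hB : ∀ k p q z (ξ : J → ℝ),
      (∑ i, (D k).B p q i z * ξ i) ^ 2 ≤ b * ∑ i, ∑ j, (D k).a i j z * (ξ i * ξ j))
    (hCb : ∀ k p q z, |(D k).C p q z| ≤ b) (hW : S W) (hg : ∀ q, S (g q))
    (hχ : S χ) (hχc : HasCompactSupport χ) (hψ : S ψ) (hw0 : ∀ z, 0 ≤ χ z) (hw1 : ∀ z, χ z ≤ 1)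
    (hp0 : ∀ z, 0 ≤ ψ z) (hp1 : ∀ z, ψ z ≤ 1) {m C : ℝ} (hC : 0 ≤ C) (hm : 0 ≤ m)
    (hmC : m ≤ C) {N : Set E} (hNm : MeasurableSet N)
    (heq : ∀ z p, ∑ k, KV e (tr e (D k)) W (KV e (D k) (fun z => -W z) g) p z = 0)
    (hN : ∀ z ∈ tsupport χ, z ∉ N → χ =ᶠ[𝓝 z] (fun _ => 1) ∧ ψ z = 0)
    (hbd : ∀ z ∈ tsupport χ, z ∈ N → ∀ k, Bd e (D k).a W χ ψ m C z) :
    ∫ z, χ z ^ 4 * ∑ k, ∑ p, KV e (D k) (fun z => -W z) g p z ^ 2 ∂μ
      ≤ (4 * CK (Fintype.card κ) b C * Fintype.card ι)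
        * ∫ z in tsupport χ ∩ N, ∑ p, g p z ^ 2 ∂μ := by
  set Q : ι → (κ → E → ℝ) → κ → E → ℝ := fun k => KV e (D k) (fun z => -W z) with hQ
  have sQ : ∀ k (f : κ → E → ℝ), (∀ q, S (f q)) → ∀ p, S (Q k f p) := fun k f hf p =>
    S.KV (hD k) hW.neg hf p
  have s4g : ∀ q, S (fun z => p4 χ z * g q z) := fun q => hχ.p4.mul (hg q)
  have ts4 : tsupport (p4 χ) ⊆ tsupport χ :=
    (tsupport_mul_subset_left (f := fun z => χ z * χ z) (g := fun z => χ z * χ z)).trans
      (tsupport_mul_subset_left (f := χ) (g := χ))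
  have c4g : ∀ q, HasCompactSupport (fun z => p4 χ z * g q z) := fun q =>
    cs_mul_right (cs_ts hχc ts4)
  have sφ : S (fun z => χ z * ψ z) := hχ.mul hψ
  have cφ : HasCompactSupport (fun z => χ z * ψ z) := cs_mul_right hχc
  -- the integral of `TV` vanishes
  have I1 : ∀ k p, Integrable (fun z => Q k g p z * Q k (fun q z => p4 χ z * g q z) p z) μ :=
    fun k p => S.int ((sQ k g hg p).mul (sQ k _ s4g p)) (cs_mul_left (cs_KV c4g p))
  have I2 : ∀ k p, Integrable (fun z => ((χ z * ψ z) ^ 2 * g p z) * Ld e (D k).a (g p) z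
      + (χ z * ψ z) ^ 2 * Gm e (D k).a (g p) (g p) z
      + 2 * (χ z * ψ z * g p z * Gm e (D k).a (fun z => χ z * ψ z) (g p) z)) μ := by
    intro k p
    have q1 : S (fun z => (χ z * ψ z) ^ 2) := sφ.pow 2
    have q1c : HasCompactSupport (fun z => (χ z * ψ z) ^ 2) := by
      have := cs_mul_right (g := fun z => χ z * ψ z) cφ
      simpa only [pow_two] using this
    have j1 : Integrable (fun z => ((χ z * ψ z) ^ 2 * g p z) * Ld e (D k).a (g p) z) μ :=
      S.int ((q1.mul (hg p)).mul (S.Ld (hD k).sa (hg p))) (cs_mul_right (cs_mul_right q1c))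
    have j2 : Integrable (fun z => (χ z * ψ z) ^ 2 * Gm e (D k).a (g p) (g p) z) μ :=
      S.int (q1.mul (S.Gm (hD k).sa (hg p) (hg p))) (cs_mul_right q1c)
    have j3 : Integrable (fun z =>
        2 * (χ z * ψ z * g p z * Gm e (D k).a (fun z => χ z * ψ z) (g p) z)) μ :=
      S.int (contDiff_const.mul ((sφ.mul (hg p)).mul (S.Gm (hD k).sa sφ (hg p))))
        (cs_mul_left (cs_mul_right (cs_mul_right cφ)))
    exact (j1.add j2).add j3
  have IP : ∀ k p, Integrable (fun z => KV e (D k) (fun z => -W z) g p z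
        * KV e (D k) (fun z => -W z) (fun q z => p4 χ z * g q z) p z
      + 512 * m * (((χ z * ψ z) ^ 2 * g p z) * Ld e (D k).a (g p) z
      + (χ z * ψ z) ^ 2 * Gm e (D k).a (g p) (g p) z
      + 2 * (χ z * ψ z * g p z * Gm e (D k).a (fun z => χ z * ψ z) (g p) z))) μ :=
    fun k p => (I1 k p).add ((I2 k p).const_mul (512 * m))
  have IT : ∀ k, Integrable (fun z => TV e (D k) W g χ ψ m z) μ := fun k =>
    integrable_finsetSum _ fun p _ => IP k p
  have z2 : ∀ k p, ∫ z, (((χ z * ψ z) ^ 2 * g p z) * Ld e (D k).a (g p) z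
      + (χ z * ψ z) ^ 2 * Gm e (D k).a (g p) (g p) z
      + 2 * (χ z * ψ z * g p z * Gm e (D k).a (fun z => χ z * ψ z) (g p) z)) ∂μ = 0 :=
    fun k p => int_cac (hD k).sa sφ cφ (hg p)
  have IQ : ∀ k p, Integrable (fun z =>
      (p4 χ z * g p z) * KV e (tr e (D k)) W (Q k g) p z) μ :=
    fun k p => S.int ((s4g p).mul (S.KV (hD k).tr hW (fun q => sQ k g hg q) p))
      (cs_mul_right (c4g p))
  have eT : ∀ k, ∫ z, TV e (D k) W g χ ψ m z ∂μ
      = ∑ p, ∫ z, (p4 χ z * g p z) * KV e (tr e (D k)) W (Q k g) p z ∂μ := by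
    intro k
    have h1 : ∫ z, TV e (D k) W g χ ψ m z ∂μ
        = ∑ p, ∫ z, Q k g p z * Q k (fun q z => p4 χ z * g q z) p z ∂μ := by
      unfold TV
      rw [integral_finsetSum _ fun p _ => IP k p]
      refine Finset.sum_congr rfl fun p _ => ?_
      rw [integral_add (I1 k p) ((I2 k p).const_mul (512 * m)), integral_const_mul, z2 k p,
        mul_zero, add_zero]
    have h2 := int_KV (μ := μ) (e := e) (hD k) hW.neg (fun q => sQ k g hg q) s4g (Or.inr c4g)
    simp only [neg_neg] at h2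
    rw [h1]
    refine h2.trans ?_
    refine Finset.sum_congr rfl fun p _ => ?_
    congr 1
    ext z
    ring
  have zT : ∫ z, ∑ k, TV e (D k) W g χ ψ m z ∂μ = 0 := by
    rw [integral_finsetSum _ fun k _ => IT k, Finset.sum_congr rfl fun k _ => eT k,
      Finset.sum_comm]
    refine Finset.sum_eq_zero fun p _ => ?_
    rw [← integral_finsetSum _ fun k _ => IQ k p]
    rw [← integral_zero E ℝ]
    refine integral_congr_ae (Eventually.of_forall fun z => ?_)
    simp only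
    rw [← Finset.mul_sum, heq z p, mul_zero]
  -- the lower bound
  have sg2 : S (fun z => ∑ p, g p z ^ 2) := S.sum fun p _ => (hg p).pow 2
  have Ig : Integrable (fun z => (tsupport χ ∩ N).indicator (fun z => ∑ p, g p z ^ 2) z) μ := by
    rw [integrable_indicator_iff ((isClosed_tsupport χ).measurableSet.inter hNm)]
    have : IntegrableOn (fun z => ∑ p, g p z ^ 2) (tsupport χ) μ :=
      (sg2.continuous.continuousOn).integrableOn_compact hχc
    exact this.mono_set inter_subset_left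
  have sX : S (fun z => χ z ^ 4 * ∑ k, ∑ p, Q k g p z ^ 2) :=
      (hχ.pow 4).mul (S.sum fun k _ => S.sum fun p _ => (sQ k g hg p).pow 2)
  have IX : Integrable (fun z => χ z ^ 4 * ∑ k, ∑ p, Q k g p z ^ 2) μ := by
    refine S.int sX (cs_ts hχc ?_)
    have : (fun z => χ z ^ 4 * ∑ k, ∑ p, Q k g p z ^ 2)
        = fun z => χ z * (χ z ^ 3 * ∑ k, ∑ p, Q k g p z ^ 2) := by
      ext z
      ring
    rw [this]
    exact ts_mul_left _ _
  have lb : ∀ z, (χ z ^ 4 * ∑ k, ∑ p, Q k g p z ^ 2) / 4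
      - (Fintype.card ι * CK (Fintype.card κ) b C)
        * (tsupport χ ∩ N).indicator (fun z => ∑ p, g p z ^ 2) z
      ≤ ∑ k, TV e (D k) W g χ ψ m z := by
    intro z
    by_cases hz : z ∈ tsupport χ
    · by_cases hzN : z ∈ N
      · rw [indicator_of_mem (show z ∈ tsupport χ ∩ N from ⟨hz, hzN⟩)]
        have h1 : ∑ k : ι, (χ z ^ 4 * (∑ p, Q k g p z ^ 2) / 4
            - CK (Fintype.card κ) b C * ∑ p, g p z ^ 2)
            ≤ ∑ k, TV e (D k) W g χ ψ m z :=
          Finset.sum_le_sum fun k _ => TV_lb (hD k) hg hχ hC hm hmC hb (hw0 z)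
            (hw1 z) (hp0 z) (hp1 z) (hbd z hz hzN k) (hB k) (hCb k)
        refine le_trans (le_of_eq ?_) h1
        rw [Finset.sum_sub_distrib, Finset.sum_const, Finset.card_univ, nsmul_eq_mul,
          ← Finset.sum_div, ← Finset.mul_sum]
        ring
      · rw [indicator_of_notMem (fun h => hzN h.2)]
        obtain ⟨h1, h2⟩ := hN z hz hzN
        have h3 : ∑ k : ι, (χ z ^ 4 * (∑ p, Q k g p z ^ 2) / 4)
            ≤ ∑ k, TV e (D k) W g χ ψ m z :=
          Finset.sum_le_sum fun k _ => TV_one h1 h2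
        refine le_trans (le_of_eq ?_) h3
        rw [← Finset.sum_div, ← Finset.mul_sum]
        ring
    · rw [indicator_of_notMem (fun h => hz h.1)]
      have w0 : χ z = 0 := image_eq_zero_of_notMem_tsupport hz
      have h3 : ∀ k, TV e (D k) W g χ ψ m z = 0 := fun k =>
        TV_zero (notMem_tsupport_iff_eventuallyEq.1 hz)
      rw [Finset.sum_congr rfl fun k _ => h3 k, w0]
      simp
  have fin : ∫ z, ((χ z ^ 4 * ∑ k, ∑ p, Q k g p z ^ 2) / 4
      - (Fintype.card ι * CK (Fintype.card κ) b C)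
        * (tsupport χ ∩ N).indicator (fun z => ∑ p, g p z ^ 2) z) ∂μ ≤ 0 := by
    rw [← zT]
    exact integral_mono ((IX.div_const 4).sub (Ig.const_mul _))
      (integrable_finsetSum _ fun k _ => IT k) lb
  rw [integral_sub (IX.div_const 4) (Ig.const_mul _), integral_div, integral_const_mul,
    integral_indicator ((isClosed_tsupport χ).measurableSet.inter hNm)] at fin
  have e3 : (4 * CK (Fintype.card κ) b C * (Fintype.card ι : ℝ))
      = 4 * (Fintype.card ι * CK (Fintype.card κ) b C) := by ring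
  rw [e3]
  linarith

/-- Vanishing in the top degree: the factors vanish. -/
theorem top_halfV (hD : ∀ k, Ok (D k)) {b : ℝ} (hb : 0 ≤ b)
    (hB : ∀ k p q z (ξ : J → ℝ),
      (∑ i, (D k).B p q i z * ξ i) ^ 2 ≤ b * ∑ i, ∑ j, (D k).a i j z * (ξ i * ξ j))
    (hCb : ∀ k p q z, |(D k).C p q z| ≤ b) (hW : S W) {C : ℝ}
    (hex : Ex univ e (fun k => (D k).a) W C) (hg : ∀ q, S (g q))
    (hgi : Integrable (fun z => ∑ p, g p z ^ 2) μ)
    (heq : ∀ z p, ∑ k, KV e (tr e (D k)) W (KV e (D k) (fun z => -W z) g) p z = 0) :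
    ∀ z k p, KV e (D k) (fun z => -W z) g p z = 0 := by
  intro z₀ k₀ p₀
  obtain ⟨K₀, hK₀, hK₀n⟩ : ∃ K₀, IsCompact K₀ ∧ K₀ ∈ 𝓝 z₀ := by
    obtain ⟨K₀, h1, h2⟩ := exists_compact_mem_nhds z₀
    exact ⟨K₀, h1, h2⟩
  set F : E → ℝ := fun z => ∑ k, ∑ p, KV e (D k) (fun z => -W z) g p z ^ 2 with hF
  have sF : S F := S.sum fun k _ => S.sum fun p _ => (S.KV (hD k) hW.neg hg p).pow 2
  have nn : ∀ z, 0 ≤ F z := fun z =>
    Finset.sum_nonneg fun k _ => Finset.sum_nonneg fun p _ => sq_nonneg _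
  have IX : IntegrableOn F K₀ μ := sF.continuous.continuousOn.integrableOn_compact hK₀
  have hC : 0 ≤ C := by
    obtain ⟨χ, ψ, m, -, -, -, -, -, -, -, -, h1, h2, -⟩ := hex K₀ hK₀ (subset_univ _)
    exact h1.trans h2
  set M : ℝ := 4 * CK (Fintype.card κ) b C * Fintype.card ι with hM
  have hM0 : 0 ≤ M := by
    have := CK_nonneg (K := Fintype.card κ) (Nat.cast_nonneg _) hb hC
    positivity
  set G : E → ℝ := fun z => Real.sqrt (∑ p, g p z ^ 2) with hG
  have G2 : ∀ z, G z ^ 2 = ∑ p, g p z ^ 2 := fun z =>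
    Real.sq_sqrt (Finset.sum_nonneg fun p _ => sq_nonneg _)
  have hGi : IntegrableOn (fun z => G z ^ 2) univ μ := by
    simp only [G2]
    exact hgi.integrableOn
  have key : ∀ ε : ℝ, 0 < ε → ∫ z in K₀, F z ∂μ ≤ M * ε := by
    intro ε hε
    obtain ⟨K, hK, hK0K, -, hKε⟩ := exists_small isOpen_univ hK₀ (subset_univ _) hGi hε
    obtain ⟨χ, ψ, m, sχ, cχ, -, sψ, χ0, χ1, ψ0, ψ1, m0, mC, hin, hbd, -⟩ :=
      hex K hK (subset_univ _)
    have main := top_locV (μ := μ) (e := e) hD hb hB hCb hW hg sχ cχ sψ χ0 χ1 ψ0 ψ1 hC m0 mC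
      (N := Kᶜ) hK.measurableSet.compl heq
      (fun z hz hn => hin z (not_not.1 hn)) (fun z hz hn k => hbd z hz hn k)
    have r1 : ∫ z in tsupport χ ∩ Kᶜ, ∑ p, g p z ^ 2 ∂μ ≤ ε := by
      simp only [← G2]
      refine le_trans (setIntegral_mono_set (hGi.mono_set sdiff_subset)
        (Eventually.of_forall fun z => sq_nonneg (G z)) ?_) hKε
      exact Eventually.of_forall fun z hz => ⟨mem_univ _, hz.2⟩
    have l1 : ∫ z in K₀, F z ∂μ ≤ ∫ z, χ z ^ 4 * F z ∂μ := by
      have s1 : S (fun z => χ z ^ 4 * F z) := (sχ.pow 4).mul sF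
      have c1 : HasCompactSupport (fun z => χ z ^ 4 * F z) := by
        refine cs_ts cχ ?_
        have : (fun z => χ z ^ 4 * F z) = fun z => χ z * (χ z ^ 3 * F z) := by
          ext z
          ring
        rw [this]
        exact ts_mul_left _ _
      have i1 := S.int (μ := μ) s1 c1
      have e1 : ∫ z in K₀, F z ∂μ = ∫ z in K₀, χ z ^ 4 * F z ∂μ := by
        refine setIntegral_congr_fun hK₀.measurableSet fun z hz => ?_
        have h1 := (hin z (hK0K hz)).1.self_of_nhds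
        simp only [h1, one_pow, one_mul]
      rw [e1]
      exact setIntegral_le_integral i1 (Eventually.of_forall fun z =>
        mul_nonneg (pow_nonneg (χ0 z) 4) (nn z))
    calc _ ≤ _ := l1
      _ ≤ _ := main
      _ ≤ _ := mul_le_mul_of_nonneg_left r1 hM0
  have z1 : ∫ z in K₀, F z ∂μ ≤ 0 := by
    refine le_of_forall_pos_le_add fun ε hε => ?_
    have hε' : 0 < ε / (M + 1) := by positivity
    have := key (ε / (M + 1)) hε'
    have h3 : M * (ε / (M + 1)) ≤ ε := by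
      rw [mul_div_assoc', div_le_iff₀ (by positivity)]
      nlinarith
    linarith
  have h0 : F z₀ = 0 := zero_of_int (μ := μ) hK₀n sF.continuous.continuousOn IX nn z1
  have h1 := (Finset.sum_eq_zero_iff_of_nonneg fun k _ =>
    Finset.sum_nonneg fun p _ => sq_nonneg (KV e (D k) (fun z => -W z) g p z₀)).1 h0 k₀
    (Finset.mem_univ _)
  have h2 := (Finset.sum_eq_zero_iff_of_nonneg fun p _ =>
    sq_nonneg (KV e (D k₀) (fun z => -W z) g p z₀)).1 h1 p₀ (Finset.mem_univ _)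
  exact pow_eq_zero_iff (two_ne_zero) |>.1 h2

end Vale.Agent.P088.R2.H349.V
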