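import Vale.Agent.P088.R2.H269.W.W9
import Vale.Agent.P088.R2.H349.V.V4

/-!
# P088, stage 4: SOL3 for systems, weak solutions and regularity
-/

open MeasureTheory Set Filter
open scoped ContDiff Matrix Topology InnerProductSpace

noncomputable section

set_option linter.unusedSectionVars false

namespace Vale.Agent.P088.R2.H349.V

open Vale.Agent.P088.LR Vale.Agent.P088.HY Vale.Agent.P088.R2.H269

variable {E : Type} [NormedAddCommGroup E] [NormedSpace ℝ E]
  [FiniteDimensional ℝ E] [MeasurableSpace E] [BorelSpace E] {μ : Measure E}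
  [μ.IsAddHaarMeasure]

lemma sqrt_memV {o : E → ℝ} (ho : Continuous o) {f : E → ℝ}
    (hf : Tt univ f) : MemLp (fun z => √(o z) * f z) 2 μ := by
  have := sqrt_mem (μ := μ) isOpen_univ ho.continuousOn hf
  rwa [Measure.restrict_univ] at this

/-- The weak solution. -/
theorem weakV {T D : Type*} [Fintype T] [AddCommGroup D] [Module ℝ D]
    {o : T → E → ℝ} (ho : ∀ t, Continuous (o t)) (po : ∀ t z, 0 < o t z)
    (A : T → D →ₗ[ℝ] (E → ℝ)) (hA : ∀ t d, Tt univ (A t d)) (l : D →ₗ[ℝ] ℝ) {M : ℝ} (hM : 0 ≤ M)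
    (h : ∀ d, (l d) ^ 2 ≤ M ^ 2 * ∫ z, ∑ t, o t z * A t d z ^ 2 ∂μ) :
    ∃ w : T → E → ℝ, (∀ t, AEStronglyMeasurable (w t) μ) ∧
      (∀ t, Integrable (fun z => w t z ^ 2 / o t z) μ) ∧
      (∑ t, ∫ z, w t z ^ 2 / o t z ∂μ) ≤ M ^ 2 ∧
      ∀ d, l d = ∫ z, ∑ t, w t z * A t d z ∂μ := by
  have m : ∀ t d, MemLp (fun z => √(o t z) * A t d z) 2 μ := fun t d => sqrt_memV (ho t) (hA t d)
  let AB : D →ₗ[ℝ] PiLp 2 (fun _ : T => Lp ℝ 2 μ) :=
    (WithLp.linearEquiv 2 ℝ (T → Lp ℝ 2 μ)).symm.toLinearMap ∘ₗ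
      (LinearMap.pi fun t => mkL (A t) (o t) (m t))
  have hn : ∀ a, ‖AB a‖ ^ 2 = ∑ t, ‖mkL (A t) (o t) (m t) a‖ ^ 2 := by
    intro a
    rw [PiLp.norm_sq_eq_of_L2]
    rfl
  have e1 : ∀ t d, ‖mkL (A t) (o t) (m t) d‖ ^ 2 = ∫ z, (√(o t z) * A t d z) ^ 2 ∂μ :=
    fun t d => L2sq (m t d)
  have e2 : ∀ d, ∑ t, ‖mkL (A t) (o t) (m t) d‖ ^ 2 = ∫ z, ∑ t, o t z * A t d z ^ 2 ∂μ := by
    intro d
    rw [Finset.sum_congr rfl fun t _ => e1 t d,
      ← integral_finsetSum _ fun t _ => (m t d).integrable_sq]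
    congr 1
    ext z
    refine Finset.sum_congr rfl fun t _ => ?_
    rw [mul_pow, Real.sq_sqrt (po t z).le]
  obtain ⟨v, hv, hva⟩ := riesz_one AB l M hM (by
    intro a
    rw [← abs_of_nonneg (mul_nonneg hM (norm_nonneg (AB a)))]
    apply sq_le_sq.mp
    rw [mul_pow, hn, e2]
    exact h a)
  have mv : ∀ t, AEStronglyMeasurable (fun z => √(o t z) * v t z) μ := fun t =>
    (ho t).sqrt.aestronglyMeasurable.mul (Lp.aestronglyMeasurable (v t))
  have sw : ∀ t z, (√(o t z) * v t z) ^ 2 / o t z = v t z ^ 2 := by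
    intro t z
    rw [mul_pow, Real.sq_sqrt (po t z).le]
    exact mul_div_cancel_left₀ _ (po t z).ne'
  refine ⟨fun t z => √(o t z) * v t z, mv, fun t => ?_, ?_, fun d => ?_⟩
  · simp only [sw]
    exact L2int (v t)
  · simp only [sw]
    rw [Finset.sum_congr rfl fun t _ => (L2nn (v t)).symm, ← PiLp.norm_sq_eq_of_L2]
    exact pow_le_pow_left₀ (norm_nonneg _) hv 2
  · have e3 : ∀ t, ⟪v t, mkL (A t) (o t) (m t) d⟫_ℝ = ∫ z, v t z * (√(o t z) * A t d z) ∂μ :=
      fun t => L2in (v t) (m t d)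
    have j1 : ∀ t, Integrable (fun z => v t z * (√(o t z) * A t d z)) μ := fun t =>
      (Lp.memLp (v t)).integrable_mul (m t d)
    rw [← hva d, PiLp.inner_apply]
    have e4 : ∑ t, ⟪v t, AB d t⟫_ℝ = ∑ t, ∫ z, v t z * (√(o t z) * A t d z) ∂μ :=
      Finset.sum_congr rfl fun t _ => e3 t
    rw [e4, ← integral_finsetSum _ fun t _ => j1 t]
    congr 1
    ext z
    refine Finset.sum_congr rfl fun t _ => ?_
    ring

/-- Regularity with an arbitrary finite set of indices. -/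
theorem hypT (hyp : RowHYP) {J T : Type} [Fintype J] [Fintype T] [DecidableEq T]
    (b : Module.Basis J ℝ E) (c : T → T → J → J → E → ℝ) (d : T → T → J → E → ℝ)
    (e : T → T → E → ℝ) (hc : ∀ p q i j, S (c p q i j)) (hd : ∀ p q i, S (d p q i))
    (he : ∀ p q, S (e p q))
    (hdet : ∀ z, ∀ ξ : J → ℝ, ξ ≠ 0 →
      (Matrix.of fun p q => ∑ i, ∑ j, c p q i j z * ξ i * ξ j).det ≠ 0)
    (w G : T → E → ℝ) (hw : ∀ q, AEStronglyMeasurable (w q) μ)
    (hwi : ∀ q, ∀ k : Set E, IsCompact k → IntegrableOn (fun z => w q z ^ 2) k μ)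
    (hG : ∀ p, S (G p))
    (weak : ∀ φ : T → E → ℝ, (∀ p, Tt univ (φ p)) →
      ∫ z, ∑ q, w q z * ∑ p, op2 b (c p q) (d p q) (e p q) (φ p) z ∂μ = ∫ z, ∑ p, G p z * φ p z ∂μ) :
    ∃ w' : T → E → ℝ, (∀ q, S (w' q)) ∧ ∀ q, ∀ᵐ z ∂μ, w' q z = w q z := by
  classical
  set ε : Fin (Fintype.card T) ≃ T := (Fintype.equivFin T).symm with hε
  obtain ⟨w', h1, h2⟩ := hyp J E μ b (Fintype.card T) univ isOpen_univ
    (fun p q => c (ε p) (ε q)) (fun p q => d (ε p) (ε q)) (fun p q => e (ε p) (ε q))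
    (fun p q i j => (hc _ _ i j).contDiffOn) (fun p q i => (hd _ _ i).contDiffOn)
    (fun p q => (he _ _).contDiffOn)
    (by
      intro z _ ξ hξ
      have h0 : (Matrix.of fun p q => ∑ i, ∑ j, c (ε p) (ε q) i j z * ξ i * ξ j)
          = (Matrix.of fun p q => ∑ i, ∑ j, c p q i j z * ξ i * ξ j).submatrix ε ε := by
        ext p q
        rfl
      rw [h0, Matrix.det_submatrix_equiv_self]
      exact hdet z ξ hξ)
    (fun q => w (ε q)) (fun p => G (ε p)) (fun q => hw _) (fun q k hk _ => hwi _ k hk)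
    (fun p => (hG _).contDiffOn)
    (by
      intro φ hφ
      have h3 := weak (fun t => φ (ε.symm t)) (fun t => ⟨(hφ _).1, (hφ _).2.1, (hφ _).2.2⟩)
      have l : ∀ z, ∑ q, w (ε q) z * ∑ p, op2 b (c (ε p) (ε q)) (d (ε p) (ε q)) (e (ε p) (ε q))
          (φ p) z = ∑ q, w q z * ∑ p, op2 b (c p q) (d p q) (e p q) (φ (ε.symm p)) z := by
        intro z
        rw [← ε.sum_comp fun q => w q z * ∑ p, op2 b (c p q) (d p q) (e p q) (φ (ε.symm p)) z]
        refine Finset.sum_congr rfl fun q _ => ?_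
        rw [← ε.sum_comp fun p => op2 b (c p (ε q)) (d p (ε q)) (e p (ε q)) (φ (ε.symm p)) z]
        simp only [Equiv.symm_apply_apply]
      have r : ∀ z, ∑ p, G (ε p) z * φ p z = ∑ p, G p z * φ (ε.symm p) z := by
        intro z
        rw [← ε.sum_comp fun p => G p z * φ (ε.symm p) z]
        simp only [Equiv.symm_apply_apply]
      simp only [l, r]
      exact h3)
  refine ⟨fun t => w' (ε.symm t), fun t => ?_, fun t => ?_⟩
  · exact contDiffOn_univ.1 (h1 _)
  · filter_upwards [h2 (ε.symm t)] with z hz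
    rw [hz (mem_univ z), Equiv.apply_symm_apply]

/-! ## The operators in the form `op2` -/

variable {J κ : Type} [Fintype J] [Fintype κ] [DecidableEq κ] {e : J → E}
  {W : E → ℝ} {f g : κ → E → ℝ}

/-- second order coefficients -/
def kc (D : Cf J κ E) (p q : κ) (i j : J) (z : E) : ℝ := if p = q then D.a i j z else 0

/-- first order coefficients -/
def kd (e : J → E) (D : Cf J κ E) (W : E → ℝ) (p q : κ) (j : J) (z : E) : ℝ :=
  (if p = q then c1 e D.a (fun z => -W z) j z else 0) + D.B p q j z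

/-- zero order coefficients -/
def ke (e : J → E) (D : Cf J κ E) (W : E → ℝ) (p q : κ) (z : E) : ℝ :=
  (if p = q then c0 e D.a (fun z => -W z) z else 0) + CW e D W p q z

lemma KV_op2 {D : Cf J κ E} (hD : Ok D) (hf : ∀ q, S (f q)) (p : κ) (z : E) :
    KV e D W f p z = ∑ q, op2 e (kc D p q) (kd e D W p q) (ke e D W p q) (f q) z := by
  have h1 : ∀ q, op2 e (kc D p q) (kd e D W p q) (ke e D W p q) (f q) z
      = (if p = q then Qd e D.a (fun z => -W z) (f q) z else 0)
        + (∑ i, D.B p q i z * db e i (f q) z + CW e D W p q z * f q z) := by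
    intro q
    by_cases hpq : p = q
    · subst hpq
      rw [if_pos rfl, Qd_op2 hD.sa (hf p)]
      unfold op2 kc kd ke
      simp only [if_true, add_mul, Finset.sum_add_distrib]
      ring
    · rw [if_neg hpq]
      unfold op2 kc kd ke
      simp only [if_neg hpq, zero_mul, zero_add, Finset.sum_const_zero]
  rw [Finset.sum_congr rfl fun q _ => h1 q, Finset.sum_add_distrib, Finset.sum_ite_eq,
    if_pos (Finset.mem_univ p)]
  rfl

lemma S.c1 {a : J → J → E → ℝ} (ha : ∀ i j, S (a i j)) (hW : S W) (j : J) : S (c1 e a W j) :=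
  S.sum fun i _ => (S.db (ha i j) i).sub (contDiff_const.mul ((ha i j).mul (hW.db i)))

lemma S.c0 {a : J → J → E → ℝ} (ha : ∀ i j, S (a i j)) (hW : S W) : S (c0 e a W) :=
  (S.Gm ha hW hW).sub (S.Ld ha hW)

lemma S.kc {D : Cf J κ E} (hD : Ok D) (p q : κ) (i j : J) : S (kc D p q i j) := by
  unfold V.kc
  by_cases h : p = q
  · simpa [h] using hD.sa i j
  · simpa [h] using contDiff_const

lemma S.kd {D : Cf J κ E} (hD : Ok D) (hW : S W) (p q : κ) (j : J) : S (kd e D W p q j) := by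
  unfold V.kd
  refine ContDiff.add ?_ (hD.sB p q j)
  by_cases h : p = q
  · simpa [h] using S.c1 hD.sa hW.neg j
  · simpa [h] using contDiff_const

lemma S.ke {D : Cf J κ E} (hD : Ok D) (hW : S W) (p q : κ) : S (ke e D W p q) := by
  unfold V.ke
  refine ContDiff.add ?_ (S.CW hD hW p q)
  by_cases h : p = q
  · simpa [h] using S.c0 hD.sa hW.neg
  · simpa [h] using contDiff_const

lemma op2_neg {c : J → J → E → ℝ} {d : J → E → ℝ} {e0 : E → ℝ} {φ : E → ℝ} (z : E) :
    op2 e (fun i j z => -c i j z) (fun j z => -d j z) (fun z => -e0 z) φ z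
      = -op2 e c d e0 φ z := by
  unfold op2
  simp only [neg_mul, Finset.sum_neg_distrib]
  ring

/-- Regularity of the weak solution. -/
theorem regV (hyp : RowHYP) (b : Module.Basis J ℝ E) {D : Fin 2 → Cf J κ E}
    (hD : ∀ k, Ok (D k))
    (hell : ∀ z, ∀ ξ : J → ℝ, ξ ≠ 0 →
      0 < ∑ i, ∑ j, ((D 0).a i j z + (D 1).a i j z) * (ξ i * ξ j))
    (hW : S W) {w G : κ ⊕ κ → E → ℝ} (hw : ∀ q, AEStronglyMeasurable (w q) μ)
    (hwi : ∀ q, ∀ k : Set E, IsCompact k → IntegrableOn (fun z => w q z ^ 2) k μ)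
    (hG : ∀ p, S (G p))
    (weak : ∀ a₁ a₂ : κ → E → ℝ, (∀ p, Tt univ (a₁ p)) → (∀ p, Tt univ (a₂ p)) →
      ∫ z, (∑ p, w (Sum.inl p) z * (KV b (tr b (D 0)) (fun z => -W z) a₁ p z
          + KV b (tr b (D 1)) (fun z => -W z) a₂ p z)
        + ∑ p, w (Sum.inr p) z * (KV b (D 1) W a₁ p z - KV b (D 0) W a₂ p z)) ∂μ
        = ∫ z, (∑ p, G (Sum.inl p) z * a₁ p z + ∑ p, G (Sum.inr p) z * a₂ p z) ∂μ) :
    ∃ w' : κ ⊕ κ → E → ℝ, (∀ q, S (w' q)) ∧ ∀ q, ∀ᵐ z ∂μ, w' q z = w q z := by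
  have hT : ∀ k, Ok (tr b (D k)) := fun k => (hD k).tr
  have hV : S (fun z => -W z) := hW.neg
  refine hypT (μ := μ) hyp b
    (fun p q => Sum.elim
      (fun p' => Sum.elim (fun q' => kc (tr b (D 0)) q' p') (fun q' => kc (D 1) q' p') q)
      (fun p' => Sum.elim (fun q' => kc (tr b (D 1)) q' p')
        (fun q' i j z => -kc (D 0) q' p' i j z) q) p)
    (fun p q => Sum.elim
      (fun p' => Sum.elim (fun q' => kd b (tr b (D 0)) (fun z => -W z) q' p')
        (fun q' => kd b (D 1) W q' p') q)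
      (fun p' => Sum.elim (fun q' => kd b (tr b (D 1)) (fun z => -W z) q' p')
        (fun q' j z => -kd b (D 0) W q' p' j z) q) p)
    (fun p q => Sum.elim
      (fun p' => Sum.elim (fun q' => ke b (tr b (D 0)) (fun z => -W z) q' p')
        (fun q' => ke b (D 1) W q' p') q)
      (fun p' => Sum.elim (fun q' => ke b (tr b (D 1)) (fun z => -W z) q' p')
        (fun q' z => -ke b (D 0) W q' p' z) q) p)
    ?_ ?_ ?_ ?_ w G hw hwi hG ?_
  · rintro (p | p) (q | q) i j
    · exact S.kc (hT 0) q p i j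
    · exact S.kc (hD 1) q p i j
    · exact S.kc (hT 1) q p i j
    · exact (S.kc (hD 0) q p i j).neg
  · rintro (p | p) (q | q) j
    · exact S.kd (hT 0) hV q p j
    · exact S.kd (hD 1) hW q p j
    · exact S.kd (hT 1) hV q p j
    · exact (S.kd (hD 0) hW q p j).neg
  · rintro (p | p) (q | q)
    · exact S.ke (hT 0) hV q p
    · exact S.ke (hD 1) hW q p
    · exact S.ke (hT 1) hV q p
    · exact (S.ke (hD 0) hW q p).neg
  · intro z ξ hξ
    set α := ∑ i, ∑ j, (D 0).a i j z * ξ i * ξ j with hα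
    set β := ∑ i, ∑ j, (D 1).a i j z * ξ i * ξ j with hβ
    have e1 : α = ∑ i, ∑ j, (D 0).a i j z * (ξ i * ξ j) := by
      rw [hα]
      exact Finset.sum_congr rfl fun i _ => Finset.sum_congr rfl fun j _ => by ring
    have e2 : β = ∑ i, ∑ j, (D 1).a i j z * (ξ i * ξ j) := by
      rw [hβ]
      exact Finset.sum_congr rfl fun i _ => Finset.sum_congr rfl fun j _ => by ring
    have p1 : 0 ≤ α := by
      rw [e1]
      exact (hD 0).pa z ξ
    have p2 : 0 ≤ β := by
      rw [e2]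
      exact (hD 1).pa z ξ
    have p3 : 0 < α + β := by
      have := hell z ξ hξ
      rw [e1, e2]
      simp only [← Finset.sum_add_distrib, ← add_mul]
      exact this
    have p4 : α ^ 2 + β ^ 2 ≠ 0 := by
      intro h0
      have h2 : α ^ 2 = 0 := by linarith [sq_nonneg α, sq_nonneg β]
      have h3 : β ^ 2 = 0 := by linarith [sq_nonneg α, sq_nonneg β]
      rw [pow_eq_zero_iff two_ne_zero] at h2 h3
      linarith
    have hM : (Matrix.of fun p q : κ ⊕ κ => ∑ i, ∑ j, (Sum.elim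
      (fun p' => Sum.elim (fun q' => kc (tr b (D 0)) q' p') (fun q' => kc (D 1) q' p') q)
      (fun p' => Sum.elim (fun q' => kc (tr b (D 1)) q' p')
        (fun q' i j z => -kc (D 0) q' p' i j z) q) p) i j z * ξ i * ξ j)
        = Matrix.fromBlocks (α • (1 : Matrix κ κ ℝ)) (β • (1 : Matrix κ κ ℝ))
          (β • (1 : Matrix κ κ ℝ)) ((-α) • (1 : Matrix κ κ ℝ)) := by
      have hk : ∀ (A : Cf J κ E) (p q : κ), ∑ i, ∑ j, kc A q p i j z * ξ i * ξ j
          = (∑ i, ∑ j, A.a i j z * ξ i * ξ j) * (1 : Matrix κ κ ℝ) p q := by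
        intro A p q
        unfold kc
        by_cases h : q = p
        · subst h
          simp
        · simp [h, Matrix.one_apply_ne (Ne.symm h)]
      have hk' : ∀ (A : Cf J κ E) (p q : κ), ∑ i, ∑ j, -kc A q p i j z * ξ i * ξ j
          = -((∑ i, ∑ j, A.a i j z * ξ i * ξ j) * (1 : Matrix κ κ ℝ) p q) := by
        intro A p q
        rw [← hk A p q]
        simp only [neg_mul, Finset.sum_neg_distrib]
      ext (p | p) (q | q)
      · simp only [Matrix.of_apply, Sum.elim_inl, Matrix.fromBlocks_apply₁₁, Matrix.smul_apply,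
          smul_eq_mul]
        exact hk _ p q
      · simp only [Matrix.of_apply, Sum.elim_inl, Sum.elim_inr, Matrix.fromBlocks_apply₁₂,
          Matrix.smul_apply, smul_eq_mul]
        exact hk _ p q
      · simp only [Matrix.of_apply, Sum.elim_inl, Sum.elim_inr, Matrix.fromBlocks_apply₂₁,
          Matrix.smul_apply, smul_eq_mul]
        exact hk _ p q
      · simp only [Matrix.of_apply, Sum.elim_inr, Matrix.fromBlocks_apply₂₂,
          Matrix.smul_apply, smul_eq_mul]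
        rw [hk' _ p q, neg_mul]
    rw [hM]
    have hsq : Matrix.fromBlocks (α • (1 : Matrix κ κ ℝ)) (β • (1 : Matrix κ κ ℝ))
          (β • (1 : Matrix κ κ ℝ)) ((-α) • (1 : Matrix κ κ ℝ))
        * Matrix.fromBlocks (α • (1 : Matrix κ κ ℝ)) (β • (1 : Matrix κ κ ℝ))
          (β • (1 : Matrix κ κ ℝ)) ((-α) • (1 : Matrix κ κ ℝ))
        = (α ^ 2 + β ^ 2) • (1 : Matrix (κ ⊕ κ) (κ ⊕ κ) ℝ) := by
      rw [Matrix.fromBlocks_multiply, ← Matrix.fromBlocks_one, Matrix.fromBlocks_smul]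
      simp only [Matrix.smul_mul, Matrix.mul_smul, Matrix.one_mul, smul_smul, ← add_smul]
      congr 1
      · congr 1
        ring
      · rw [show β * α + -α * β = 0 by ring]
        simp
      · rw [show α * β + β * -α = 0 by ring]
        simp
      · congr 1
        ring
    intro h0
    have h1 := congrArg Matrix.det hsq
    rw [Matrix.det_mul, h0, mul_zero, Matrix.det_smul, Matrix.det_one, mul_one] at h1
    exact pow_ne_zero _ p4 h1.symm
  · intro φ hφ
    have := weak (fun p => φ (Sum.inl p)) (fun p => φ (Sum.inr p)) (fun p => hφ _) (fun p => hφ _)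
    have s1 : ∀ p : κ, S (φ (Sum.inl p)) := fun p => (hφ _).s
    have s2 : ∀ p : κ, S (φ (Sum.inr p)) := fun p => (hφ _).s
    have r : ∀ z, ∑ p, G p z * φ p z = ∑ p, G (Sum.inl p) z * φ (Sum.inl p) z
        + ∑ p, G (Sum.inr p) z * φ (Sum.inr p) z := fun z => Fintype.sum_sum_type _
    simp only [r]
    rw [← this]
    congr 1
    ext z
    rw [Fintype.sum_sum_type]
    simp only [Fintype.sum_sum_type, Sum.elim_inl, Sum.elim_inr]
    congr 1
    · refine Finset.sum_congr rfl fun q _ => ?_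
      rw [KV_op2 (hT 0) s1, KV_op2 (hT 1) s2]
    · refine Finset.sum_congr rfl fun q _ => ?_
      rw [KV_op2 (hD 1) s1, KV_op2 (hD 0) s2]
      simp only [op2_neg, Finset.sum_neg_distrib]
      ring

end Vale.Agent.P088.R2.H349.V
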