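import Vale.Agent.P088.R2.H269.W.W10
import Vale.Agent.P088.R2.H349.V.V5

/-!
# P088, stage 4: SOL3 for systems
-/

open MeasureTheory Set Filter
open scoped ContDiff Matrix Topology InnerProductSpace

noncomputable section

set_option linter.unusedSectionVars false

namespace Vale.Agent.P088.R2.H349.V

open Vale.Agent.P088.LR Vale.Agent.P088.HY Vale.Agent.P088.R2.H269

variable {J κ E : Type} [Fintype J] [Fintype κ] [DecidableEq κ]
  [NormedAddCommGroup E] [NormedSpace ℝ E] [FiniteDimensional ℝ E]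
  [MeasurableSpace E] [BorelSpace E] {μ : Measure E}
  [μ.IsAddHaarMeasure] {e : J → E} {W : E → ℝ} {D : Fin 2 → Cf J κ E}

lemma zero_of_weakV {R : κ → E → ℝ} (hR : ∀ p, S (R p))
    (h : ∀ a : κ → E → ℝ, (∀ p, Tt univ (a p)) → ∫ z, ∑ p, R p z * a p z ∂μ = 0) (p : κ) (z : E) :
    R p z = 0 := by
  refine zero_of_weak (μ := μ) isOpen_univ (hR p).contDiffOn (fun c hc => ?_) z (mem_univ z)
  have h1 := h (fun q => if q = p then c else fun _ => 0) (fun q => by
    by_cases hq : q = p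
    · rw [if_pos hq]
      exact hc
    · rw [if_neg hq]
      exact Tt.zero)
  rw [← h1]
  congr 1
  ext z
  rw [Finset.sum_eq_single p]
  · rw [if_pos rfl]
  · intro q _ hq
    rw [if_neg hq, mul_zero]
  · intro hp
    exact absurd (Finset.mem_univ p) hp

lemma Tt_KV {A : Cf J κ E} (hA : Ok A) {X : E → ℝ} (hX : S X) {f : κ → E → ℝ}
    (hf : ∀ q, Tt univ (f q)) (p : κ) : Tt univ (KV e A X f p) :=
  ⟨S.KV hA hX (fun q => (hf q).s) p, cs_KV (fun q => (hf q).c) p, subset_univ _⟩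

/-- the strong equations -/
theorem strongV (hD : ∀ k, Ok (D k)) (hW : S W)
    {w g G₁ G₂ : κ → E → ℝ} (hw : ∀ p, S (w p)) (hg : ∀ p, S (g p))
    (hG₁ : ∀ p, S (G₁ p)) (hG₂ : ∀ p, S (G₂ p))
    (weak : ∀ a₁ a₂ : κ → E → ℝ, (∀ p, Tt univ (a₁ p)) → (∀ p, Tt univ (a₂ p)) →
      ∫ z, (∑ p, w p z * (KV e (tr e (D 0)) (fun z => -W z) a₁ p z
          + KV e (tr e (D 1)) (fun z => -W z) a₂ p z)
        + ∑ p, g p z * (KV e (D 1) W a₁ p z - KV e (D 0) W a₂ p z)) ∂μ
        = ∫ z, (∑ p, G₁ p z * a₁ p z + ∑ p, G₂ p z * a₂ p z) ∂μ) :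
    (∀ p z, KV e (D 0) W w p z + KV e (tr e (D 1)) (fun z => -W z) g p z = G₁ p z) ∧
    (∀ p z, KV e (D 1) W w p z - KV e (tr e (D 0)) (fun z => -W z) g p z = G₂ p z) := by
  have hT : ∀ k, Ok (tr e (D k)) := fun k => (hD k).tr
  have hV : S (fun z => -W z) := hW.neg
  -- adjoints
  have ad1 : ∀ k, ∀ a : κ → E → ℝ, (∀ p, Tt univ (a p)) →
      ∑ p, ∫ z, w p z * KV e (tr e (D k)) (fun z => -W z) a p z ∂μ
        = ∑ p, ∫ z, KV e (D k) W w p z * a p z ∂μ := by
    intro k a ha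
    have h1 := int_KV (μ := μ) (e := e) (hT k) hV hw (fun p => (ha p).s)
      (Or.inr fun p => (ha p).c)
    rw [tr_tr] at h1
    simp only [neg_neg] at h1
    exact h1
  have ad2 : ∀ k, ∀ a : κ → E → ℝ, (∀ p, Tt univ (a p)) →
      ∑ p, ∫ z, g p z * KV e (D k) W a p z ∂μ
        = ∑ p, ∫ z, KV e (tr e (D k)) (fun z => -W z) g p z * a p z ∂μ := by
    intro k a ha
    exact int_KV (μ := μ) (e := e) (hD k) hW hg (fun p => (ha p).s)
      (Or.inr fun p => (ha p).c)
  have zz : ∀ (A : Cf J κ E) (X : E → ℝ) (p : κ) (z : E), KV e A X (fun _ _ => 0) p z = 0 :=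
    fun A X p z => congrFun (KV_zero p) z
  have iw : ∀ k, ∀ a : κ → E → ℝ, (∀ p, Tt univ (a p)) → ∀ p,
      Integrable (fun z => w p z * KV e (tr e (D k)) (fun z => -W z) a p z) μ := fun k a ha p =>
    S.int ((hw p).mul (Tt_KV (e := e) (hT k) hV ha p).s) (cs_mul_left (Tt_KV (e := e) (hT k) hV ha p).c)
  have ig : ∀ k, ∀ a : κ → E → ℝ, (∀ p, Tt univ (a p)) → ∀ p,
      Integrable (fun z => g p z * KV e (D k) W a p z) μ := fun k a ha p =>
    S.int ((hg p).mul (Tt_KV (e := e) (hD k) hW ha p).s) (cs_mul_left (Tt_KV (e := e) (hD k) hW ha p).c)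
  have iP : ∀ k, ∀ a : κ → E → ℝ, (∀ p, Tt univ (a p)) → ∀ p,
      Integrable (fun z => KV e (D k) W w p z * a p z) μ := fun k a ha p =>
    S.int ((S.KV (hD k) hW hw p).mul (ha p).s) (cs_mul_left (ha p).c)
  have iQ : ∀ k, ∀ a : κ → E → ℝ, (∀ p, Tt univ (a p)) → ∀ p,
      Integrable (fun z => KV e (tr e (D k)) (fun z => -W z) g p z * a p z) μ := fun k a ha p =>
    S.int ((S.KV (hT k) hV hg p).mul (ha p).s) (cs_mul_left (ha p).c)
  have iG : ∀ G : κ → E → ℝ, (∀ p, S (G p)) → ∀ a : κ → E → ℝ, (∀ p, Tt univ (a p)) → ∀ p,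
      Integrable (fun z => G p z * a p z) μ := fun G hG a ha p =>
    S.int ((hG p).mul (ha p).s) (cs_mul_left (ha p).c)
  constructor
  · intro p z
    have h0 := zero_of_weakV (μ := μ)
      (R := fun p z => (KV e (D 0) W w p z + KV e (tr e (D 1)) (fun z => -W z) g p z) - G₁ p z)
      (fun p => ((S.KV (hD 0) hW hw p).add (S.KV (hT 1) hV hg p)).sub (hG₁ p)) (fun a ha => by
        have k := weak a (fun _ _ => 0) ha (fun _ => Tt.zero)
        simp only [zz, add_zero, sub_zero, mul_zero, Finset.sum_const_zero] at k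
        rw [integral_add (integrable_finsetSum _ fun p _ => iw 0 a ha p)
          (integrable_finsetSum _ fun p _ => ig 1 a ha p),
          integral_finsetSum _ fun p _ => iw 0 a ha p, integral_finsetSum _ fun p _ => ig 1 a ha p,
          integral_finsetSum _ fun p _ => iG G₁ hG₁ a ha p, ad1 0 a ha, ad2 1 a ha] at k
        have j : ∀ p, Integrable (fun z => ((KV e (D 0) W w p z
            + KV e (tr e (D 1)) (fun z => -W z) g p z) - G₁ p z) * a p z) μ := by
          intro p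
          have := ((iP 0 a ha p).add (iQ 1 a ha p)).sub (iG G₁ hG₁ a ha p)
          refine this.congr (Eventually.of_forall fun z => ?_)
          simp only [Pi.add_apply, Pi.sub_apply]
          ring
        rw [integral_finsetSum _ fun p _ => j p]
        have e4 : ∀ p, ∫ z, ((KV e (D 0) W w p z + KV e (tr e (D 1)) (fun z => -W z) g p z)
            - G₁ p z) * a p z ∂μ
            = ((∫ z, KV e (D 0) W w p z * a p z ∂μ)
              + ∫ z, KV e (tr e (D 1)) (fun z => -W z) g p z * a p z ∂μ)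
              - ∫ z, G₁ p z * a p z ∂μ := by
          intro p
          have i12 : Integrable (fun z => KV e (D 0) W w p z * a p z
              + KV e (tr e (D 1)) (fun z => -W z) g p z * a p z) μ :=
            (iP 0 a ha p).add (iQ 1 a ha p)
          rw [← integral_add (iP 0 a ha p) (iQ 1 a ha p), ← integral_sub i12 (iG G₁ hG₁ a ha p)]
          congr 1
          ext z
          ring
        rw [Finset.sum_congr rfl fun p _ => e4 p, Finset.sum_sub_distrib, Finset.sum_add_distrib]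
        linarith) p z
    linarith
  · intro p z
    have h0 := zero_of_weakV (μ := μ)
      (R := fun p z => (KV e (D 1) W w p z - KV e (tr e (D 0)) (fun z => -W z) g p z) - G₂ p z)
      (fun p => ((S.KV (hD 1) hW hw p).sub (S.KV (hT 0) hV hg p)).sub (hG₂ p)) (fun a ha => by
        have k := weak (fun _ _ => 0) a (fun _ => Tt.zero) ha
        simp only [zz, zero_add, zero_sub, mul_zero, Finset.sum_const_zero, mul_neg,
          Finset.sum_neg_distrib] at k
        have k' : ∫ z, (∑ p, w p z * KV e (tr e (D 1)) (fun z => -W z) a p z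
            - ∑ p, g p z * KV e (D 0) W a p z) ∂μ = ∫ z, ∑ p, G₂ p z * a p z ∂μ := by
          rw [← k]
          congr 1
        rw [integral_sub (integrable_finsetSum _ fun p _ => iw 1 a ha p)
          (integrable_finsetSum _ fun p _ => ig 0 a ha p),
          integral_finsetSum _ fun p _ => iw 1 a ha p, integral_finsetSum _ fun p _ => ig 0 a ha p,
          integral_finsetSum _ fun p _ => iG G₂ hG₂ a ha p, ad1 1 a ha, ad2 0 a ha] at k'
        have j : ∀ p, Integrable (fun z => ((KV e (D 1) W w p z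
            - KV e (tr e (D 0)) (fun z => -W z) g p z) - G₂ p z) * a p z) μ := by
          intro p
          have := ((iP 1 a ha p).sub (iQ 0 a ha p)).sub (iG G₂ hG₂ a ha p)
          refine this.congr (Eventually.of_forall fun z => ?_)
          simp only [Pi.sub_apply]
          ring
        rw [integral_finsetSum _ fun p _ => j p]
        have e4 : ∀ p, ∫ z, ((KV e (D 1) W w p z - KV e (tr e (D 0)) (fun z => -W z) g p z)
            - G₂ p z) * a p z ∂μ
            = ((∫ z, KV e (D 1) W w p z * a p z ∂μ)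
              - ∫ z, KV e (tr e (D 0)) (fun z => -W z) g p z * a p z ∂μ)
              - ∫ z, G₂ p z * a p z ∂μ := by
          intro p
          have i12 : Integrable (fun z => KV e (D 1) W w p z * a p z
              - KV e (tr e (D 0)) (fun z => -W z) g p z * a p z) μ :=
            (iP 1 a ha p).sub (iQ 0 a ha p)
          rw [← integral_sub (iP 1 a ha p) (iQ 0 a ha p), ← integral_sub i12 (iG G₂ hG₂ a ha p)]
          congr 1
          ext z
          ring
        rw [Finset.sum_congr rfl fun p _ => e4 p, Finset.sum_sub_distrib, Finset.sum_sub_distrib]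
        linarith) p z
    linarith

/-- `K (e^{-W} F) = e^{-W} L F` -/
lemma KV_exp {A : Cf J κ E} (hA : Ok A) (hW : S W) {F : κ → E → ℝ} (hF : ∀ p, S (F p)) (p : κ)
    (z : E) : KV e A W (fun q z => Real.exp (-W z) * F q z) p z = Real.exp (-W z) * LV e A F p z := by
  rw [KV_eq hA hW (fun q => (hW.neg.exp).mul (hF q))]
  congr 2
  funext q w
  rw [← mul_assoc, ← Real.exp_add]
  simp

/-- the second function solves the equation of the top degree -/
theorem top_eqV (hD : ∀ k, Ok (D k))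
    (hc : ∀ f : κ → E → ℝ, (∀ p, S (f p)) → ∀ p z,
      LV e (D 0) (LV e (D 1) f) p z = LV e (D 1) (LV e (D 0) f) p z)
    (hW : S W) {w g F₁ F₂ : κ → E → ℝ} (hw : ∀ p, S (w p)) (hg : ∀ p, S (g p))
    (hF₁ : ∀ p, S (F₁ p)) (hF₂ : ∀ p, S (F₂ p))
    (comp : ∀ p z, LV e (D 1) F₁ p z = LV e (D 0) F₂ p z)
    (h1 : ∀ p z, KV e (D 0) W w p z + KV e (tr e (D 1)) (fun z => -W z) g p z
      = Real.exp (-W z) * F₁ p z)
    (h2 : ∀ p z, KV e (D 1) W w p z - KV e (tr e (D 0)) (fun z => -W z) g p z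
      = Real.exp (-W z) * F₂ p z) (z : E) (p : κ) :
    ∑ k, KV e (D k) W (KV e (tr e (D k)) (fun z => -W z) g) p z = 0 := by
  have hT : ∀ k, Ok (tr e (D k)) := fun k => (hD k).tr
  have hV : S (fun z => -W z) := hW.neg
  have sP : ∀ k p, S (KV e (D k) W w p) := fun k p => S.KV (hD k) hW hw p
  have sQ : ∀ k p, S (KV e (tr e (D k)) (fun z => -W z) g p) := fun k p => S.KV (hT k) hV hg p
  have k1 : KV e (D 1) W (KV e (D 0) W w) p z
      + KV e (D 1) W (KV e (tr e (D 1)) (fun z => -W z) g) p z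
      = Real.exp (-W z) * LV e (D 1) F₁ p z := by
    rw [← KV_add (hD 1) (sP 0) (sQ 1), ← KV_exp (hD 1) hW hF₁]
    congr 2
    funext q w
    exact h1 q w
  have k2 : KV e (D 0) W (KV e (D 1) W w) p z
      - KV e (D 0) W (KV e (tr e (D 0)) (fun z => -W z) g) p z
      = Real.exp (-W z) * LV e (D 0) F₂ p z := by
    have e1 : KV e (D 0) W (fun q z => (-1) * KV e (tr e (D 0)) (fun z => -W z) g q z) p z
        = (-1) * KV e (D 0) W (KV e (tr e (D 0)) (fun z => -W z) g) p z :=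
      KV_smul (hD 0) (-1) (sQ 0) p z
    have e2 := KV_add (e := e) (W := W) (hD 0) (sP 1)
      (fun q => contDiff_const.mul (sQ 0 q) : ∀ q, S (fun z => (-1) *
        KV e (tr e (D 0)) (fun z => -W z) g q z)) p z
    rw [e1] at e2
    have e3 : KV e (D 0) W (fun q z => KV e (D 1) W w q z
        + (-1) * KV e (tr e (D 0)) (fun z => -W z) g q z) p z
        = Real.exp (-W z) * LV e (D 0) F₂ p z := by
      rw [← KV_exp (hD 0) hW hF₂]
      congr 2
      funext q w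
      rw [← h2 q w]
      ring
    rw [← e3, e2]
    ring
  have cm : KV e (D 0) W (KV e (D 1) W w) p z = KV e (D 1) W (KV e (D 0) W w) p z := by
    have sF : ∀ q, S (fun z => Real.exp (W z) * w q z) := fun q => hW.exp.mul (hw q)
    have key : ∀ j k : Fin 2, KV e (D j) W (KV e (D k) W w) p z
        = Real.exp (-W z) * LV e (D j) (LV e (D k) (fun q z => Real.exp (W z) * w q z)) p z := by
      intro j k
      rw [← KV_exp (hD j) hW (fun q => S.LV (hD k) sF q)]
      congr 2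
      funext q w'
      exact KV_eq (hD k) hW hw q w'
    rw [key 0 1, key 1 0, hc _ sF]
  rw [Fin.sum_univ_two]
  rw [comp p z] at k1
  linarith

/-- pairs of vector test functions -/
def TDV (κ E : Type) [NormedAddCommGroup E] [NormedSpace ℝ E] [FiniteDimensional ℝ E] :
    Submodule ℝ ((κ → E → ℝ) × (κ → E → ℝ)) where
  carrier := {a | (∀ p, Tt univ (a.1 p)) ∧ ∀ p, Tt univ (a.2 p)}
  add_mem' ha hb := ⟨fun p => (ha.1 p).add (hb.1 p), fun p => (ha.2 p).add (hb.2 p)⟩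
  zero_mem' := ⟨fun _ => Tt.zero, fun _ => Tt.zero⟩
  smul_mem' c _ ha := ⟨fun p => (ha.1 p).smul c, fun p => (ha.2 p).smul c⟩

/-- `x ↦ K x` as a linear map on the pairs. -/
def KL (e : J → E) {A : Cf J κ E} (hA : Ok A) (X : E → ℝ) (p : κ)
    (π : TDV κ E →ₗ[ℝ] (κ → E → ℝ)) (hπ : ∀ x q, Tt univ (π x q)) : TDV κ E →ₗ[ℝ] (E → ℝ) where
  toFun x z := KV e A X (π x) p z
  map_add' x y := by
    ext z
    rw [map_add]
    exact KV_add hA (fun q => (hπ x q).s) (fun q => (hπ y q).s) p z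
  map_smul' c x := by
    ext z
    rw [map_smul]
    exact KV_smul hA c (fun q => (hπ x q).s) p z

/-- **SOL3** for systems. -/
theorem solV (hyp : RowHYP) (b : Module.Basis J ℝ E) (hD : ∀ k, Ok (D k))
    (hell : ∀ z, ∀ ξ : J → ℝ, ξ ≠ 0 →
      0 < ∑ i, ∑ j, ((D 0).a i j z + (D 1).a i j z) * (ξ i * ξ j))
    (hc : ∀ f : κ → E → ℝ, (∀ p, S (f p)) → ∀ p z,
      LV b (D 0) (LV b (D 1) f) p z = LV b (D 1) (LV b (D 0) f) p z)
    {β : ℝ} (hβ : 0 ≤ β) (hB : ∀ k p q z (ξ : J → ℝ),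
      (∑ i, (D k).B p q i z * ξ i) ^ 2 ≤ β * ∑ i, ∑ j, (D k).a i j z * (ξ i * ξ j))
    (hCb : ∀ k p q z, |(tr b (D k)).C p q z| ≤ β)
    (hW : S W) {C : ℝ} (hex : Ex univ b (fun k => (D k).a) W C)
    {o₁ o₂ : E → ℝ} (ho₁ : Continuous o₁) (ho₂ : Continuous o₂)
    (p₁ : ∀ z, 0 < o₁ z) (p₂ : ∀ z, 0 < o₂ z) {C₂ : ℝ} (b₂ : ∀ z, o₂ z ≤ C₂)
    {F₁ F₂ : κ → E → ℝ} (hF₁ : ∀ p, S (F₁ p)) (hF₂ : ∀ p, S (F₂ p))
    (comp : ∀ p z, LV b (D 1) F₁ p z = LV b (D 0) F₂ p z) {M : ℝ} (hM : 0 ≤ M)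
    (est : ∀ a₁ a₂ : κ → E → ℝ, (∀ p, Tt univ (a₁ p)) → (∀ p, Tt univ (a₂ p)) →
      (∫ z, Real.exp (-W z) * (∑ p, F₁ p z * a₁ p z + ∑ p, F₂ p z * a₂ p z) ∂μ) ^ 2 ≤ M ^ 2 *
        ∫ z, (o₁ z * ∑ p, (KV b (tr b (D 0)) (fun z => -W z) a₁ p z
            + KV b (tr b (D 1)) (fun z => -W z) a₂ p z) ^ 2
          + o₂ z * ∑ p, (KV b (D 1) W a₁ p z - KV b (D 0) W a₂ p z) ^ 2) ∂μ) :
    ∃ v : κ → E → ℝ, (∀ p, S (v p)) ∧ (∀ p z, LV b (D 0) v p z = F₁ p z) ∧
      (∀ p z, LV b (D 1) v p z = F₂ p z) ∧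
      Integrable (fun z => Real.exp (-(2 * W z)) * (∑ p, v p z ^ 2) / o₁ z) μ ∧
      ∫ z, Real.exp (-(2 * W z)) * (∑ p, v p z ^ 2) / o₁ z ∂μ ≤ M ^ 2 := by
  have hT : ∀ k, Ok (tr b (D k)) := fun k => (hD k).tr
  have hV : S (fun z => -W z) := hW.neg
  set G₁ : κ → E → ℝ := fun p z => Real.exp (-W z) * F₁ p z with hG₁
  set G₂ : κ → E → ℝ := fun p z => Real.exp (-W z) * F₂ p z with hG₂
  have sG₁ : ∀ p, S (G₁ p) := fun p => (hW.neg.exp).mul (hF₁ p)
  have sG₂ : ∀ p, S (G₂ p) := fun p => (hW.neg.exp).mul (hF₂ p)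
  -- the linear maps
  let π₁ : TDV κ E →ₗ[ℝ] (κ → E → ℝ) := LinearMap.fst ℝ _ _ ∘ₗ (TDV κ E).subtype
  let π₂ : TDV κ E →ₗ[ℝ] (κ → E → ℝ) := LinearMap.snd ℝ _ _ ∘ₗ (TDV κ E).subtype
  have t₁ : ∀ x q, Tt univ (π₁ x q) := fun x q => x.2.1 q
  have t₂ : ∀ x q, Tt univ (π₂ x q) := fun x q => x.2.2 q
  let A : κ ⊕ κ → TDV κ E →ₗ[ℝ] (E → ℝ) := fun t => Sum.elim
    (fun p => KL b (hT 0) (fun z => -W z) p π₁ t₁ + KL b (hT 1) (fun z => -W z) p π₂ t₂)
    (fun p => KL b (hD 1) W p π₁ t₁ - KL b (hD 0) W p π₂ t₂) t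
  have iG : ∀ x y : κ → E → ℝ, (∀ p, Tt univ (x p)) → (∀ p, Tt univ (y p)) →
      Integrable (fun z => ∑ p, G₁ p z * x p z + ∑ p, G₂ p z * y p z) μ := fun x y hx hy =>
    (integrable_finsetSum _ fun p _ => S.int ((sG₁ p).mul (hx p).s) (cs_mul_left (hx p).c)).add
      (integrable_finsetSum _ fun p _ => S.int ((sG₂ p).mul (hy p).s) (cs_mul_left (hy p).c))
  let l : TDV κ E →ₗ[ℝ] ℝ :=
    { toFun := fun d => ∫ z, (∑ p, G₁ p z * d.1.1 p z + ∑ p, G₂ p z * d.1.2 p z) ∂μ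
      map_add' := fun x y => by
        rw [← integral_add (iG _ _ x.2.1 x.2.2) (iG _ _ y.2.1 y.2.2)]
        congr 1
        ext z
        change ∑ p, G₁ p z * (x.1.1 p z + y.1.1 p z) + ∑ p, G₂ p z * (x.1.2 p z + y.1.2 p z) = _
        simp only [mul_add, Finset.sum_add_distrib]
        ring
      map_smul' := fun c x => by
        rw [RingHom.id_apply, smul_eq_mul, ← integral_const_mul]
        congr 1
        ext z
        change ∑ p, G₁ p z * (c * x.1.1 p z) + ∑ p, G₂ p z * (c * x.1.2 p z) = _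
        rw [mul_add, Finset.mul_sum, Finset.mul_sum]
        congr 1
        · exact Finset.sum_congr rfl fun p _ => by ring
        · exact Finset.sum_congr rfl fun p _ => by ring }
  have hA : ∀ t d, Tt univ (A t d) := by
    rintro (p | p) d
    · exact (Tt_KV (hT 0) hV (t₁ d) p).add (Tt_KV (hT 1) hV (t₂ d) p)
    · have h1 := (Tt_KV (e := b) (hD 1) hW (t₁ d) p).add ((Tt_KV (e := b) (hD 0) hW (t₂ d) p).smul (-1))
      have h2 : (fun z => KV b (D 1) W (π₁ d) p z + -1 * KV b (D 0) W (π₂ d) p z)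
          = A (Sum.inr p) d := by
        ext z
        change _ = KV b (D 1) W (π₁ d) p z - KV b (D 0) W (π₂ d) p z
        ring
      rwa [h2] at h1
  set o : κ ⊕ κ → E → ℝ := fun t => Sum.elim (fun _ => o₁) (fun _ => o₂) t with ho
  have co : ∀ t, Continuous (o t) := by
    rintro (p | p)
    · exact ho₁
    · exact ho₂
  have po : ∀ t z, 0 < o t z := by
    rintro (p | p) z
    · exact p₁ z
    · exact p₂ z
  have sumA : ∀ (d : TDV κ E) z, ∑ t, o t z * A t d z ^ 2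
      = o₁ z * ∑ p, (KV b (tr b (D 0)) (fun z => -W z) d.1.1 p z
            + KV b (tr b (D 1)) (fun z => -W z) d.1.2 p z) ^ 2
          + o₂ z * ∑ p, (KV b (D 1) W d.1.1 p z - KV b (D 0) W d.1.2 p z) ^ 2 := by
    intro d z
    rw [Fintype.sum_sum_type, Finset.mul_sum, Finset.mul_sum]
    rfl
  have hl : ∀ d, (l d) ^ 2 ≤ M ^ 2 * ∫ z, ∑ t, o t z * A t d z ^ 2 ∂μ := by
    intro d
    have h1 := est d.1.1 d.1.2 d.2.1 d.2.2
    have h2 : l d = ∫ z, Real.exp (-W z) * (∑ p, F₁ p z * d.1.1 p z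
        + ∑ p, F₂ p z * d.1.2 p z) ∂μ := by
      change ∫ z, (∑ p, G₁ p z * d.1.1 p z + ∑ p, G₂ p z * d.1.2 p z) ∂μ = _
      congr 1
      ext z
      rw [mul_add, Finset.mul_sum, Finset.mul_sum]
      congr 1
      · exact Finset.sum_congr rfl fun p _ => by rw [hG₁]; ring
      · exact Finset.sum_congr rfl fun p _ => by rw [hG₂]; ring
    rw [h2]
    refine h1.trans (le_of_eq ?_)
    congr 2
    ext z
    exact (sumA d z).symm
  obtain ⟨w, mw, iw, bd, wk⟩ := weakV (μ := μ) co po A hA l hM hl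
  have wk' : ∀ a₁ a₂ : κ → E → ℝ, (∀ p, Tt univ (a₁ p)) → (∀ p, Tt univ (a₂ p)) →
      ∫ z, (∑ p, w (Sum.inl p) z * (KV b (tr b (D 0)) (fun z => -W z) a₁ p z
          + KV b (tr b (D 1)) (fun z => -W z) a₂ p z)
        + ∑ p, w (Sum.inr p) z * (KV b (D 1) W a₁ p z - KV b (D 0) W a₂ p z)) ∂μ
        = ∫ z, (∑ p, G₁ p z * a₁ p z + ∑ p, G₂ p z * a₂ p z) ∂μ := by
    intro a₁ a₂ h1 h2
    have h3 := wk ⟨(a₁, a₂), h1, h2⟩
    refine Eq.trans ?_ h3.symm
    congr 1
    ext z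
    rw [Fintype.sum_sum_type]
    rfl
  have li2 : ∀ t, ∀ k : Set E, IsCompact k → IntegrableOn (fun z => w t z ^ 2) k μ :=
    fun t k hk => li (μ := μ) (U := univ) (co t).continuousOn (fun z _ => po t z)
      (iw t).integrableOn hk (subset_univ k)
  obtain ⟨w', sw, aw⟩ := regV (μ := μ) hyp b hD hell hW (G := fun t => Sum.elim G₁ G₂ t) mw li2
    (by
      rintro (p | p)
      · exact sG₁ p
      · exact sG₂ p)
    (fun a₁ a₂ h1 h2 => wk' a₁ a₂ h1 h2)
  set x : κ → E → ℝ := fun p => w' (Sum.inl p) with hx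
  set g : κ → E → ℝ := fun p => w' (Sum.inr p) with hg
  have sx : ∀ p, S (x p) := fun p => sw _
  have sg : ∀ p, S (g p) := fun p => sw _
  have aw' : ∀ᵐ z ∂μ, ∀ t, w' t z = w t z := ae_all_iff.2 aw
  have wk2 : ∀ a₁ a₂ : κ → E → ℝ, (∀ p, Tt univ (a₁ p)) → (∀ p, Tt univ (a₂ p)) →
      ∫ z, (∑ p, x p z * (KV b (tr b (D 0)) (fun z => -W z) a₁ p z
          + KV b (tr b (D 1)) (fun z => -W z) a₂ p z)
        + ∑ p, g p z * (KV b (D 1) W a₁ p z - KV b (D 0) W a₂ p z)) ∂μ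
        = ∫ z, (∑ p, G₁ p z * a₁ p z + ∑ p, G₂ p z * a₂ p z) ∂μ := by
    intro a₁ a₂ h1 h2
    rw [← wk' a₁ a₂ h1 h2]
    refine integral_congr_ae ?_
    filter_upwards [aw'] with z k1
    simp only [hx, hg, k1]
  obtain ⟨eq1, eq2⟩ := strongV (μ := μ) hD hW sx sg sG₁ sG₂ wk2
  have top := top_eqV hD hc hW sx sg hF₁ hF₂ comp eq1 eq2
  have ig2 : Integrable (fun z => ∑ p, g p z ^ 2) μ := by
    refine integrable_finsetSum _ fun p _ => ?_
    have h1 : Integrable (fun z => C₂ * (w (Sum.inr p) z ^ 2 / o₂ z)) μ :=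
      (iw (Sum.inr p)).const_mul C₂
    refine Integrable.mono' h1 ((sg p).continuous.pow 2).aestronglyMeasurable ?_
    filter_upwards [aw'] with z k1
    rw [Real.norm_eq_abs, abs_of_nonneg (sq_nonneg _)]
    have k2 : g p z = w (Sum.inr p) z := k1 _
    rw [k2, mul_div_assoc', le_div_iff₀ (p₂ z), mul_comm]
    exact mul_le_mul_of_nonneg_right (b₂ z) (sq_nonneg _)
  have g0 := top_halfV (μ := μ) (D := fun k => tr b (D k)) hT hβ
    (fun k p q z ξ => by
      have h1 : ∑ i, (tr b (D k)).B p q i z * ξ i = -∑ i, (D k).B q p i z * ξ i := by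
        rw [← Finset.sum_neg_distrib]
        exact Finset.sum_congr rfl fun i _ => by
          change -(D k).B q p i z * ξ i = _
          ring
      rw [h1, neg_sq]
      exact hB k q p z ξ)
    hCb hW hex sg ig2
    (fun z p => by
      simp only [tr_tr]
      exact top z p)
  have sv : ∀ p, S (fun z => Real.exp (W z) * x p z) := fun p => hW.exp.mul (sx p)
  have fin1 : ∀ k, ∀ F : κ → E → ℝ, (∀ p z, KV b (D k) W x p z = Real.exp (-W z) * F p z) →
      ∀ p z, LV b (D k) (fun q z => Real.exp (W z) * x q z) p z = F p z := by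
    intro k F hF p z
    have h1 := KV_eq (e := b) (hD k) hW sx p z
    rw [hF p z] at h1
    exact (mul_left_cancel₀ (Real.exp_pos _).ne' h1).symm
  have sq : ∀ z, Real.exp (-(2 * W z)) * (∑ p, (Real.exp (W z) * x p z) ^ 2)
      = ∑ p, x p z ^ 2 := by
    intro z
    rw [Finset.mul_sum]
    refine Finset.sum_congr rfl fun p _ => ?_
    rw [mul_pow, ← mul_assoc, ← Real.exp_nat_mul, ← Real.exp_add]
    norm_num
  have ev : ∀ᵐ z ∂μ, ∑ p, w (Sum.inl p) z ^ 2 / o₁ z
      = Real.exp (-(2 * W z)) * (∑ p, (Real.exp (W z) * x p z) ^ 2) / o₁ z := by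
    filter_upwards [aw'] with z k1
    rw [sq, Finset.sum_div]
    exact Finset.sum_congr rfl fun p _ => by rw [← k1 (Sum.inl p)]
  refine ⟨fun p z => Real.exp (W z) * x p z, sv, fin1 0 F₁ fun p z => ?_,
    fin1 1 F₂ fun p z => ?_, ?_, ?_⟩
  · have := eq1 p z
    rw [g0 z 1 p, add_zero] at this
    exact this
  · have := eq2 p z
    rw [g0 z 0 p, sub_zero] at this
    exact this
  · exact (integrable_finsetSum _ fun p _ => iw (Sum.inl p)).congr ev
  · have iw1 : ∀ p : κ, Integrable (fun z => w (Sum.inl p) z ^ 2 / o₁ z) μ := fun p =>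
      iw (Sum.inl p)
    rw [← integral_congr_ae ev, integral_finsetSum _ fun p _ => iw1 p]
    rw [Fintype.sum_sum_type] at bd
    have h2 : 0 ≤ ∑ p : κ, ∫ z, w (Sum.inr p) z ^ 2 / o (Sum.inr p) z ∂μ :=
      Finset.sum_nonneg fun p _ => integral_nonneg fun z => div_nonneg (sq_nonneg _) (p₂ z).le
    have h3 : ∑ p : κ, ∫ z, w (Sum.inl p) z ^ 2 / o (Sum.inl p) z ∂μ
        = ∑ p : κ, ∫ z, w (Sum.inl p) z ^ 2 / o₁ z ∂μ := rfl
    linarith

end Vale.Agent.P088.R2.H349.V
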