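import Vale.Agent.P088.R2.H269.W.W14
import Vale.Agent.P088.R2.H349.V.V6
import Vale.Agent.P088.R2.H455.S4.SpecE

/-!
# P088, stage 4: SOL3 for systems on pairs of points
-/

open MeasureTheory Set Filter
open scoped ContDiff Matrix Topology InnerProductSpace

noncomputable section

set_option linter.unusedSectionVars false

namespace Vale.Agent.P088.R2.H349.V

open Vale.Agent.P088.LR Vale.Agent.P088.HY Vale.Agent.P088.R2.H269 Vale.Agent.P088.S4

variable {n m : ℕ}

/-! ## Operators in `x` -/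

/-- Operators in the first variable. -/
structure XT (T : (VV n → ℝ) → VV n → ℝ) : Prop where
  sm : ∀ {f}, S f → S (T f)
  add : ∀ {f g}, S f → S g → T (fun w => f w + g w) = fun w => T f w + T g w
  mul : ∀ {c : V n → ℝ} {f : VV n → ℝ}, ContDiff ℝ ∞ c → S f →
    T (fun w => c w.2 * f w) = fun w => c w.2 * T f w
  dy : ∀ {f} (k : Fin n), S f → T (HY.dy k f) = HY.dy k (T f)

lemma XT.zero {T : (VV n → ℝ) → VV n → ℝ} (h : XT T) : T (fun _ => 0) = fun _ => 0 := by
  have h1 := h.mul (c := fun _ => 0) (f := fun _ => 0) contDiff_const contDiff_const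
  simpa using h1

lemma XT.sum {T : (VV n → ℝ) → VV n → ℝ} (h : XT T) {ι : Type} (t : Finset ι)
    {g : ι → VV n → ℝ} (hg : ∀ i, S (g i)) :
    T (fun w => ∑ i ∈ t, g i w) = fun w => ∑ i ∈ t, T (g i) w := by
  classical
  induction t using Finset.induction_on with
  | empty =>
    simp only [Finset.sum_empty]
    exact h.zero
  | insert a t ha ih =>
    simp only [Finset.sum_insert ha]
    rw [h.add (hg a) (S.sum fun i _ => hg i), ih]

lemma sm_snd {c : V n → ℝ} (hc : ContDiff ℝ ∞ c) : S (fun w : VV n => c w.2) :=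
  hc.comp contDiff_snd

lemma sm_fst {c : V n → ℝ} (hc : ContDiff ℝ ∞ c) : S (fun w : VV n => c w.1) :=
  hc.comp contDiff_fst

/-- an operator in `x` commutes with the divergence form operator in `y` -/
lemma XT.cDY {T : (VV n → ℝ) → VV n → ℝ} (h : XT T) {s : MF n} (hs : SmM s) {f : VV n → ℝ}
    (hf : S f) : T (DY s f) = DY s (T f) := by
  have s1 : ∀ i j, S (HY.dy i (fun w => s w.2 i j * HY.dy j f w)) := fun i j =>
    S.dy ((sm_snd (hs i j)).mul (hf.dy j)) i
  have e0 : DY s f = fun w => ∑ i, ∑ j, HY.dy i (fun w => s w.2 i j * HY.dy j f w) w := rfl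
  rw [e0, h.sum _ fun i => S.sum fun j _ => s1 i j]
  ext z
  change ∑ i, T (fun w => ∑ j, HY.dy i (fun w => s w.2 i j * HY.dy j f w) w) z
    = ∑ i, ∑ j, HY.dy i (fun w => s w.2 i j * HY.dy j (T f) w) z
  refine Finset.sum_congr rfl fun i _ => ?_
  rw [h.sum _ fun j => s1 i j]
  refine Finset.sum_congr rfl fun j _ => ?_
  rw [h.dy i ((sm_snd (hs i j)).mul (hf.dy j)), h.mul (hs i j) (hf.dy j), h.dy j hf]

/-- an operator in `x` and a first order operator in `y` -/
lemma XT.cFY {T : (VV n → ℝ) → VV n → ℝ} (h : XT T) {c : Fin n → Fin m → V n → ℝ}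
    (hc : ∀ i b, ContDiff ℝ ∞ (c i b)) {f : Fin m → VV n → ℝ} (hf : ∀ b, S (f b)) :
    T (fun w => ∑ i, ∑ b, c i b w.2 * HY.dy i (f b) w)
      = fun w => ∑ i, ∑ b, c i b w.2 * HY.dy i (T (f b)) w := by
  have s1 : ∀ i b, S (fun w => c i b w.2 * HY.dy i (f b) w) := fun i b =>
    (sm_snd (hc i b)).mul ((hf b).dy i)
  rw [h.sum _ fun i => S.sum fun b _ => s1 i b]
  ext z
  refine Finset.sum_congr rfl fun i _ => ?_
  rw [h.sum _ fun b => s1 i b]
  simp only
  refine Finset.sum_congr rfl fun b _ => ?_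
  rw [h.mul (hc i b) ((hf b).dy i), h.dy i (hf b)]

/-- the divergence form operator -/
lemma XT.isDX {s : MF n} (hs : SmM s) : XT (DX s) where
  sm hf := by
    rw [← Ld_aX]
    exact S.Ld (sm_aX hs) hf
  add hf hg := by
    ext z
    have := Ld_add (e := bs n) (sm_aX hs) hf hg z
    rw [Ld_aX, Ld_aX, Ld_aX] at this
    exact this
  mul {c f} hc hf := by
    have c0 : ∀ (w : VV n) k, HY.dx k (fun w : VV n => c w.2) w = 0 := fun w k =>
      dx_snd' (c := c) w (hc.differentiable (by simp) _) k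
    ext z
    unfold H269.DX
    simp only [Finset.mul_sum]
    refine Finset.sum_congr rfl fun i _ => Finset.sum_congr rfl fun j _ => ?_
    have s1 : S (fun w : VV n => s w.1 i j) := sm_fst (hs i j)
    rw [dx_mul2 (sm_snd hc) c0 hf j]
    have e1 : (fun w : VV n => s w.1 i j * (c w.2 * HY.dx j f w))
        = fun w => c w.2 * (s w.1 i j * HY.dx j f w) := by
      ext w
      ring
    rw [e1, dx_mul2 (sm_snd hc) c0 (s1.mul (hf.dx j)) i]
  dy k hf := (dy_DX hs hf k).symm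

/-- a first order term -/
lemma XT.isBX {b : V n → ℝ} (hb : ContDiff ℝ ∞ b) (i : Fin n) :
    XT (fun (f : VV n → ℝ) w => b w.1 * HY.dx i f w) where
  sm hf := (sm_fst hb).mul (hf.dx i)
  add {f g} hf hg := by
    ext w
    have := db_add (e := bs n) hf hg (Sum.inl i) w
    rw [db_inl, db_inl, db_inl] at this
    rw [this]
    ring
  mul {c f} hc hf := by
    have c0 : ∀ (w : VV n) k, HY.dx k (fun w : VV n => c w.2) w = 0 := fun w k =>
      dx_snd' (c := c) w (hc.differentiable (by simp) _) k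
    ext w
    rw [dx_mul2 (sm_snd hc) c0 hf i]
    ring
  dy {f} k hf := by
    have c0 : ∀ (w : VV n) k, HY.dy k (fun w : VV n => b w.1) w = 0 := fun w k =>
      dy_fst' (c := b) w (hb.differentiable (by simp) _) k
    rw [dy_mul1 (sm_fst hb) c0 (hf.dx i) k, dx_dy' hf i k]

/-! ## Linearity of the operators in `y` -/

lemma DY_sum {s : MF n} (hs : SmM s) {ι : Type} (t : Finset ι)
    {g : ι → VV n → ℝ} (hg : ∀ i, S (g i)) (z : VV n) :
    DY s (fun w => ∑ i ∈ t, g i w) z = ∑ i ∈ t, DY s (g i) z := by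
  classical
  induction t using Finset.induction_on with
  | empty =>
    simp only [Finset.sum_empty]
    rw [← Ld_aY]
    exact congrFun Ld_zero z
  | insert a t ha ih =>
    simp only [Finset.sum_insert ha]
    have := Ld_add (e := bs n) (sm_aY hs) (hg a) (S.sum (t := t) fun i _ => hg i) z
    rw [Ld_aY, Ld_aY, Ld_aY, ih] at this
    exact this

lemma dy_sum {ι : Type} (t : Finset ι) {g : ι → VV n → ℝ} (hg : ∀ i, S (g i)) (k : Fin n)
    (z : VV n) : HY.dy k (fun w => ∑ i ∈ t, g i w) z = ∑ i ∈ t, HY.dy k (g i) z := by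
  unfold HY.dy
  rw [fderiv_fun_sum fun i _ => (hg i).df z]
  simp

lemma DY_add {s : MF n} (hs : SmM s) {f g : VV n → ℝ} (hf : S f) (hg : S g) (z : VV n) :
    DY s (fun w => f w + g w) z = DY s f z + DY s g z := by
  have := Ld_add (e := bs n) (sm_aY hs) hf hg z
  rwa [Ld_aY, Ld_aY, Ld_aY] at this

lemma dy_add {f g : VV n → ℝ} (hf : S f) (hg : S g) (k : Fin n) (z : VV n) :
    HY.dy k (fun w => f w + g w) z = HY.dy k f z + HY.dy k g z := by
  have := db_add (e := bs n) hf hg (Sum.inr k) z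
  rwa [db_inr, db_inr, db_inr] at this

/-! ## Commutation -/

variable {s₁ s₂ : MF n} {B C : Fin n → V n → Matrix (Fin m) (Fin m) ℝ}

lemma sm_AXN (h₁ : SmM s₁) (hB : ∀ i a b, ContDiff ℝ ∞ (fun x => B i x a b))
    {f : Fin m → VV n → ℝ} (hf : ∀ a, S (f a)) (a : Fin m) : S (AXN s₁ B f a) :=
  ((XT.isDX h₁).sm (hf a)).add (S.sum fun i _ => S.sum fun b _ =>
    (sm_fst (hB i a b)).mul ((hf b).dx i))

lemma sm_DY (h₂ : SmM s₂) {f : VV n → ℝ} (hf : S f) : S (DY s₂ f) := by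
  rw [← Ld_aY]
  exact S.Ld (sm_aY h₂) hf

lemma sm_AYN (h₂ : SmM s₂) (hC : ∀ i a b, ContDiff ℝ ∞ (fun x => C i x a b))
    {f : Fin m → VV n → ℝ} (hf : ∀ a, S (f a)) (a : Fin m) : S (AYN s₂ C f a) :=
  (sm_DY h₂ (hf a)).add (S.sum fun i _ => S.sum fun b _ =>
    (sm_snd (hC i a b)).mul ((hf b).dy i))

/-- an operator in `x` applied to `A_y f` -/
lemma XT.cAY {T : (VV n → ℝ) → VV n → ℝ} (h : XT T) (h₂ : SmM s₂)
    (hC : ∀ i a b, ContDiff ℝ ∞ (fun x => C i x a b)) {f : Fin m → VV n → ℝ}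
    (hf : ∀ a, S (f a)) (a : Fin m) (z : VV n) :
    T (AYN s₂ C f a) z = AYN s₂ C (fun b => T (f b)) a z := by
  have e0 : AYN s₂ C f a = fun w => DY s₂ (f a) w
      + ∑ i, ∑ b, C i w.2 a b * HY.dy i (f b) w := rfl
  have s1 : S (fun w : VV n => ∑ i, ∑ b, C i w.2 a b * HY.dy i (f b) w) :=
    S.sum fun i _ => S.sum fun b _ => (sm_snd (hC i a b)).mul ((hf b).dy i)
  rw [e0, h.add (sm_DY h₂ (hf a)) s1, h.cDY h₂ (hf a),
    h.cFY (c := fun i b y => C i y a b) (fun i b => hC i a b) hf]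
  rfl

/-- The operators commute. -/
theorem AXN_AYN (h₁ : SmM s₁) (h₂ : SmM s₂) (hB : ∀ i a b, ContDiff ℝ ∞ (fun x => B i x a b))
    (hC : ∀ i a b, ContDiff ℝ ∞ (fun x => C i x a b))
    (hc : ∀ i j x y, B i x * C j y = C j y * B i x) {f : Fin m → VV n → ℝ}
    (hf : ∀ a, S (f a)) (a : Fin m) (z : VV n) :
    AXN s₁ B (AYN s₂ C f) a z = AYN s₂ C (AXN s₁ B f) a z := by
  have sD : ∀ b, S (DX s₁ (f b)) := fun b => (XT.isDX h₁).sm (hf b)
  have sT : ∀ i a b, S (fun w => B i w.1 a b * HY.dx i (f b) w) := fun i a b =>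
    (sm_fst (hB i a b)).mul ((hf b).dx i)
  have sS : ∀ a, S (fun w => ∑ i, ∑ b, B i w.1 a b * HY.dx i (f b) w) := fun a =>
    S.sum fun i _ => S.sum fun b _ => sT i a b
  -- left hand side
  have l1 : DX s₁ (AYN s₂ C f a) z = AYN s₂ C (fun b => DX s₁ (f b)) a z :=
    (XT.isDX h₁).cAY h₂ hC hf a z
  have l2 : ∀ i b, B i z.1 a b * HY.dx i (AYN s₂ C f b) z
      = AYN s₂ C (fun c w => B i w.1 a b * HY.dx i (f c) w) b z := fun i b =>
    (XT.isBX (hB i a b) i).cAY h₂ hC hf b z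
  have L : AXN s₁ B (AYN s₂ C f) a z = AYN s₂ C (fun b => DX s₁ (f b)) a z
      + ∑ i, ∑ b, AYN s₂ C (fun c w => B i w.1 a b * HY.dx i (f c) w) b z := by
    unfold AXN
    rw [l1]
    congr 1
    exact Finset.sum_congr rfl fun i _ => Finset.sum_congr rfl fun b _ => l2 i b
  -- right hand side
  have r1 : DY s₂ (AXN s₁ B f a) z = DY s₂ (DX s₁ (f a)) z
      + ∑ i, ∑ b, DY s₂ (fun w => B i w.1 a b * HY.dx i (f b) w) z := by
    have e0 : AXN s₁ B f a = fun w => DX s₁ (f a) w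
      + ∑ i, ∑ b, B i w.1 a b * HY.dx i (f b) w := rfl
    rw [e0, DY_add h₂ (sD a) (sS a), DY_sum h₂ _ fun i => S.sum fun b _ => sT i a b]
    congr 1
    exact Finset.sum_congr rfl fun i _ => DY_sum h₂ _ (fun b => sT i a b) z
  have r2 : ∀ j c, HY.dy j (AXN s₁ B f c) z = HY.dy j (DX s₁ (f c)) z
      + ∑ i, ∑ b, HY.dy j (fun w => B i w.1 c b * HY.dx i (f b) w) z := by
    intro j c
    have e0 : AXN s₁ B f c = fun w => DX s₁ (f c) w
      + ∑ i, ∑ b, B i w.1 c b * HY.dx i (f b) w := rfl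
    rw [e0, dy_add (sD c) (sS c), dy_sum _ fun i => S.sum fun b _ => sT i c b]
    congr 1
    exact Finset.sum_congr rfl fun i _ => dy_sum _ (fun b => sT i c b) j z
  have R : AYN s₂ C (AXN s₁ B f) a z = DY s₂ (DX s₁ (f a)) z
      + ∑ i, ∑ b, DY s₂ (fun w => B i w.1 a b * HY.dx i (f b) w) z
      + ∑ j, ∑ c, C j z.2 a c * (HY.dy j (DX s₁ (f c)) z
      + ∑ i, ∑ b, HY.dy j (fun w => B i w.1 c b * HY.dx i (f b) w) z) := by
    unfold AYN
    rw [r1]
    congr 1
    exact Finset.sum_congr rfl fun j _ => Finset.sum_congr rfl fun c _ => by rw [r2 j c]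
  -- the mixed terms
  have mix : ∀ i j (c a b : Fin m), HY.dy j (fun w => B i w.1 a b * HY.dx i (f c) w) z
      = B i z.1 a b * HY.dy j (HY.dx i (f c)) z := by
    intro i j c a b
    have c0 : ∀ (w : VV n) k, HY.dy k (fun w : VV n => B i w.1 a b) w = 0 := fun w k =>
      dy_fst' (c := fun x => B i x a b) w ((hB i a b).differentiable (by simp) _) k
    rw [dy_mul1 (sm_fst (hB i a b)) c0 ((hf c).dx i) j]
  have M1 : ∑ i, ∑ b, ∑ j, ∑ c, C j z.2 b c * HY.dy j (fun w => B i w.1 a b * HY.dx i (f c) w) z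
      = ∑ j, ∑ c, C j z.2 a c * ∑ i, ∑ b, HY.dy j (fun w => B i w.1 c b * HY.dx i (f b) w) z := by
    have A1 : ∑ i, ∑ b, ∑ j, ∑ c, C j z.2 b c * HY.dy j (fun w => B i w.1 a b * HY.dx i (f c) w) z
        = ∑ i, ∑ j, ∑ c, (B i z.1 * C j z.2) a c * HY.dy j (HY.dx i (f c)) z := by
      refine Finset.sum_congr rfl fun i _ => ?_
      rw [Finset.sum_comm]
      refine Finset.sum_congr rfl fun j _ => ?_
      rw [Finset.sum_comm]
      refine Finset.sum_congr rfl fun c _ => ?_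
      rw [Matrix.mul_apply, Finset.sum_mul]
      refine Finset.sum_congr rfl fun b _ => ?_
      rw [mix]
      ring
    have A2 : ∑ j, ∑ c, C j z.2 a c * ∑ i, ∑ b, HY.dy j (fun w => B i w.1 c b * HY.dx i (f b) w) z
        = ∑ i, ∑ j, ∑ b, (C j z.2 * B i z.1) a b * HY.dy j (HY.dx i (f b)) z := by
      rw [Finset.sum_comm (γ := Fin n) (s := Finset.univ) (t := Finset.univ)
        (f := fun i j => ∑ b, (C j z.2 * B i z.1) a b * HY.dy j (HY.dx i (f b)) z)]
      refine Finset.sum_congr rfl fun j _ => ?_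
      simp only [Finset.mul_sum]
      rw [Finset.sum_comm]
      refine Finset.sum_congr rfl fun i _ => ?_
      rw [Finset.sum_comm]
      refine Finset.sum_congr rfl fun b _ => ?_
      rw [Matrix.mul_apply, Finset.sum_mul]
      refine Finset.sum_congr rfl fun c _ => ?_
      rw [mix]
      ring
    rw [A1, A2]
    refine Finset.sum_congr rfl fun i _ => Finset.sum_congr rfl fun j _ =>
      Finset.sum_congr rfl fun c _ => ?_
    rw [hc i j]
  rw [L, R]
  unfold AYN
  simp only [Finset.sum_add_distrib, mul_add]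
  rw [M1]
  ring

end Vale.Agent.P088.R2.H349.V
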