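import Vale.Agent.P088.R2.H349.V.V7

/-!
# P088, stage 4: SOL3 for systems, final form
-/

open MeasureTheory Set Filter
open scoped ContDiff Matrix Topology InnerProductSpace

noncomputable section

set_option linter.unusedSectionVars false

namespace Vale.Agent.P088.R2.H349.V

open Vale.Agent.P088.LR Vale.Agent.P088.HY Vale.Agent.P088.R2.H269 Vale.Agent.P088.S4

variable {n m : ℕ}

/-- first order coefficients in `x` -/
def BX (B : Fin n → V n → Matrix (Fin m) (Fin m) ℝ) (p q : Fin m) (k : Fin n ⊕ Fin n) (z : VV n) :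
    ℝ := Sum.elim (fun i => B i z.1 p q) (fun _ => 0) k

/-- first order coefficients in `y` -/
def BY (C : Fin n → V n → Matrix (Fin m) (Fin m) ℝ) (p q : Fin m) (k : Fin n ⊕ Fin n) (z : VV n) :
    ℝ := Sum.elim (fun _ => 0) (fun i => C i z.2 p q) k

/-- The two operators. -/
def DD (s₁ s₂ : MF n) (B C : Fin n → V n → Matrix (Fin m) (Fin m) ℝ) (k : Fin 2) :
    Cf (Fin n ⊕ Fin n) (Fin m) (VV n) where
  a := aa s₁ s₂ k
  B := if k = 0 then BX B else BY C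
  C := fun _ _ _ => 0

variable {s₁ s₂ : MF n} {B C : Fin n → V n → Matrix (Fin m) (Fin m) ℝ}

lemma DDa0 : (DD s₁ s₂ B C 0).a = aX s₁ := rfl
lemma DDa1 : (DD s₁ s₂ B C 1).a = aY s₂ := rfl
lemma DDB0 : (DD s₁ s₂ B C 0).B = BX B := rfl
lemma DDB1 : (DD s₁ s₂ B C 1).B = BY C := rfl
lemma DDC (k : Fin 2) (p q : Fin m) (z : VV n) : (DD s₁ s₂ B C k).C p q z = 0 := rfl

lemma sm_BX (hB : ∀ i a b, ContDiff ℝ ∞ (fun x => B i x a b)) (p q : Fin m) (k : Fin n ⊕ Fin n) :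
    S (BX B p q k) := by
  rcases k with i | i
  · exact sm_fst (hB i p q)
  · exact contDiff_const

lemma sm_BY (hC : ∀ i a b, ContDiff ℝ ∞ (fun x => C i x a b)) (p q : Fin m) (k : Fin n ⊕ Fin n) :
    S (BY C p q k) := by
  rcases k with i | i
  · exact contDiff_const
  · exact sm_snd (hC i p q)

lemma sum_BX (p q : Fin m) (z : VV n) (ξ : Fin n ⊕ Fin n → ℝ) :
    ∑ k, BX B p q k z * ξ k = ∑ i, B i z.1 p q * ξ (Sum.inl i) := by
  rw [Fintype.sum_sum_type]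
  simp [BX]

lemma sum_BY (p q : Fin m) (z : VV n) (ξ : Fin n ⊕ Fin n → ℝ) :
    ∑ k, BY C p q k z * ξ k = ∑ i, C i z.2 p q * ξ (Sum.inr i) := by
  rw [Fintype.sum_sum_type]
  simp [BY]

lemma dx_fst {c : V n → ℝ} (hc : ContDiff ℝ ∞ c) (i : Fin n) (z : VV n) :
    HY.dx i (fun w : VV n => c w.1) z = LR.pd i c z.1 := by
  unfold HY.dx LR.pd
  have h : HasFDerivAt (fun w : VV n => c w.1)
      ((fderiv ℝ c z.1).comp (ContinuousLinearMap.fst ℝ (V n) (V n))) z :=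
    HasFDerivAt.comp z (f := Prod.fst) ((hc.differentiable (by simp) _).hasFDerivAt) hasFDerivAt_fst
  rw [h.fderiv]
  simp

lemma dy_snd {c : V n → ℝ} (hc : ContDiff ℝ ∞ c) (i : Fin n) (z : VV n) :
    HY.dy i (fun w : VV n => c w.2) z = LR.pd i c z.2 := by
  unfold HY.dy LR.pd
  have h : HasFDerivAt (fun w : VV n => c w.2)
      ((fderiv ℝ c z.2).comp (ContinuousLinearMap.snd ℝ (V n) (V n))) z :=
    HasFDerivAt.comp z (f := Prod.snd) ((hc.differentiable (by simp) _).hasFDerivAt) hasFDerivAt_snd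
  rw [h.fderiv]
  simp

/-- the divergence of the coefficients -/
lemma div_BX (hB : ∀ i a b, ContDiff ℝ ∞ (fun x => B i x a b)) (p q : Fin m) (z : VV n) :
    ∑ k, db (bs n) k (BX B p q k) z = ∑ i, LR.pd i (fun x => B i x p q) z.1 := by
  rw [Fintype.sum_sum_type]
  have h1 : ∑ i : Fin n, db (bs n) (Sum.inr i) (BX B p q (Sum.inr i)) z = 0 :=
    Finset.sum_eq_zero fun i _ => db_const 0 (Sum.inr i) z
  rw [h1, add_zero]
  refine Finset.sum_congr rfl fun i _ => ?_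
  rw [db_inl]
  exact dx_fst (hB i p q) i z

lemma div_BY (hC : ∀ i a b, ContDiff ℝ ∞ (fun x => C i x a b)) (p q : Fin m) (z : VV n) :
    ∑ k, db (bs n) k (BY C p q k) z = ∑ i, LR.pd i (fun x => C i x p q) z.2 := by
  rw [Fintype.sum_sum_type]
  have h1 : ∑ i : Fin n, db (bs n) (Sum.inl i) (BY C p q (Sum.inl i)) z = 0 :=
    Finset.sum_eq_zero fun i _ => db_const 0 (Sum.inl i) z
  rw [h1, zero_add]
  refine Finset.sum_congr rfl fun i _ => ?_
  rw [db_inr]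
  exact dy_snd (hC i p q) i z

lemma ok_DD (h₁ : SmM s₁) (h₂ : SmM s₂) (y₁ : ∀ x, (s₁ x).IsSymm) (y₂ : ∀ x, (s₂ x).IsSymm)
    (p₁ : PD s₁) (p₂ : PD s₂) (hB : ∀ i a b, ContDiff ℝ ∞ (fun x => B i x a b))
    (hC : ∀ i a b, ContDiff ℝ ∞ (fun x => C i x a b)) (k : Fin 2) : Ok (DD s₁ s₂ B C k) where
  sa i j := by
    fin_cases k
    · exact sm_aX h₁ i j
    · exact sm_aY h₂ i j
  ss i j z := by
    fin_cases k
    · exact sy_aX y₁ i j z
    · exact sy_aY y₂ i j z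
  pa := by
    fin_cases k
    · exact pos_aX p₁
    · exact pos_aY p₂
  sB p q i := by
    fin_cases k
    · exact sm_BX hB p q i
    · exact sm_BY hC p q i
  sC p q := contDiff_const

/-! ## The operators -/

lemma LV0 (f : Fin m → VV n → ℝ) (a : Fin m) (z : VV n) :
    LV (bs n) (DD s₁ s₂ B C 0) f a z = AXN s₁ B f a z := by
  unfold LV AXN Fo
  rw [DDa0, Ld_aX]
  congr 1
  rw [Finset.sum_comm]
  refine Finset.sum_congr rfl fun b _ => ?_
  rw [DDB0, sum_BX, DDC, zero_mul, add_zero]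
  simp only [db_inl]

lemma LV1 (f : Fin m → VV n → ℝ) (a : Fin m) (z : VV n) :
    LV (bs n) (DD s₁ s₂ B C 1) f a z = AYN s₂ C f a z := by
  unfold LV AYN Fo
  rw [DDa1, Ld_aY]
  congr 1
  rw [Finset.sum_comm]
  refine Finset.sum_congr rfl fun b _ => ?_
  rw [DDB1, sum_BY, DDC, zero_mul, add_zero]
  simp only [db_inr]

lemma KV0 (h₁ : SmM s₁) {W : VV n → ℝ} (hW : S W) (f : Fin m → VV n → ℝ) (a : Fin m) (z : VV n) :
    KV (bs n) (DD s₁ s₂ B C 0) W f a z = PXN s₁ B W f a z := by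
  unfold KV PXN Fo CW
  rw [DDa0, ← PX_eq h₁ hW]
  congr 1
  rw [Finset.sum_comm]
  refine Finset.sum_congr rfl fun b _ => ?_
  rw [DDB0, sum_BX, sum_BX, DDC, zero_add, Finset.sum_mul, ← Finset.sum_add_distrib]
  refine Finset.sum_congr rfl fun i _ => ?_
  rw [db_inl, db_inl]
  ring

lemma KV1 (h₂ : SmM s₂) {W : VV n → ℝ} (hW : S W) (f : Fin m → VV n → ℝ) (a : Fin m) (z : VV n) :
    KV (bs n) (DD s₁ s₂ B C 1) W f a z = PYN s₂ C W f a z := by
  unfold KV PYN Fo CW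
  rw [DDa1, ← PY_eq h₂ hW]
  congr 1
  rw [Finset.sum_comm]
  refine Finset.sum_congr rfl fun b _ => ?_
  rw [DDB1, sum_BY, sum_BY, DDC, zero_add, Finset.sum_mul, ← Finset.sum_add_distrib]
  refine Finset.sum_congr rfl fun i _ => ?_
  rw [db_inr, db_inr]
  ring

lemma trB (D : Cf (Fin n ⊕ Fin n) (Fin m) (VV n)) (p q : Fin m) (k : Fin n ⊕ Fin n) (z : VV n) :
    (tr (bs n) D).B p q k z = -D.B q p k z := rfl

lemma KT0 (hB : ∀ i a b, ContDiff ℝ ∞ (fun x => B i x a b)) {W : VV n → ℝ}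
    (f : Fin m → VV n → ℝ) (a : Fin m) (z : VV n) :
    KV (bs n) (tr (bs n) (DD s₁ s₂ B C 0)) (fun z => -W z) f a z = QXN s₁ B W f a z := by
  rw [KT_eq]
  unfold QXN Fo
  have e0 : (tr (bs n) (DD s₁ s₂ B C 0)).a = aX s₁ := rfl
  rw [e0, ← QX_eq, sub_eq_add_neg]
  congr 1
  rw [Finset.sum_comm, ← Finset.sum_neg_distrib]
  refine Finset.sum_congr rfl fun b _ => ?_
  rw [tr_CW]
  unfold CW
  simp only [trB]
  rw [DDB0, div_BX hB, sum_BX, DDC]
  have h1 : ∑ k, -BX B b a k z * db (bs n) k (f b) z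
      = -∑ i, B i z.1 b a * HY.dx i (f b) z := by
    have h2 := sum_BX (B := B) b a z fun k => db (bs n) k (f b) z
    simp only [neg_mul, Finset.sum_neg_distrib, h2, db_inl]
  rw [h1]
  simp only [db_inl, Finset.sum_add_distrib, mul_sub, Finset.sum_sub_distrib]
  rw [zero_add, sub_mul, Finset.sum_mul, Finset.sum_mul]
  have h3 : ∑ i, B i z.1 b a * (HY.dx i W z * f b z) = ∑ i, B i z.1 b a * HY.dx i W z * f b z :=
    Finset.sum_congr rfl fun i _ => by ring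
  rw [h3]
  ring

lemma KT1 (hC : ∀ i a b, ContDiff ℝ ∞ (fun x => C i x a b)) {W : VV n → ℝ}
    (f : Fin m → VV n → ℝ) (a : Fin m) (z : VV n) :
    KV (bs n) (tr (bs n) (DD s₁ s₂ B C 1)) (fun z => -W z) f a z = QYN s₂ C W f a z := by
  rw [KT_eq]
  unfold QYN Fo
  have e0 : (tr (bs n) (DD s₁ s₂ B C 1)).a = aY s₂ := rfl
  rw [e0, ← QY_eq, sub_eq_add_neg]
  congr 1
  rw [Finset.sum_comm, ← Finset.sum_neg_distrib]
  refine Finset.sum_congr rfl fun b _ => ?_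
  rw [tr_CW]
  unfold CW
  simp only [trB]
  rw [DDB1, div_BY hC, sum_BY, DDC]
  have h1 : ∑ k, -BY C b a k z * db (bs n) k (f b) z
      = -∑ i, C i z.2 b a * HY.dy i (f b) z := by
    have h2 := sum_BY (C := C) b a z fun k => db (bs n) k (f b) z
    simp only [neg_mul, Finset.sum_neg_distrib, h2, db_inr]
  rw [h1]
  simp only [db_inr, Finset.sum_add_distrib, mul_sub, Finset.sum_sub_distrib]
  rw [zero_add, sub_mul, Finset.sum_mul, Finset.sum_mul]
  have h3 : ∑ i, C i z.2 b a * (HY.dy i W z * f b z) = ∑ i, C i z.2 b a * HY.dy i W z * f b z :=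
    Finset.sum_congr rfl fun i _ => by ring
  rw [h3]
  ring

end Vale.Agent.P088.R2.H349.V
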